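import Vale.Agent.P284.H113.Cover

/-!
# The deck group
-/

open Topology Set Filter Metric

set_option linter.unusedSectionVars false

namespace Vale.Agent.P284.H113

/-- The group of deck transformations. -/
def DeckG {E X : Type*} [TopologicalSpace E] (F : E → X) : Subgroup (Equiv.Perm E) where
  carrier := {g | Continuous g ∧ Continuous g.symm ∧ ∀ x, F (g x) = F x}
  mul_mem' := by
    rintro g h ⟨g1, g2, g3⟩ ⟨h1, h2, h3⟩
    refine ⟨g1.comp h1, h2.comp g2, fun x => ?_⟩
    show F (g (h x)) = F x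
    rw [g3, h3]
  one_mem' := ⟨continuous_id, continuous_id, fun x => rfl⟩
  inv_mem' := by
    rintro g ⟨g1, g2, g3⟩
    refine ⟨g2, g1, fun x => ?_⟩
    show F (g.symm x) = F x
    rw [← g3 (g.symm x), Equiv.apply_symm_apply]

section Top

variable {E X : Type*} [TopologicalSpace E] [TopologicalSpace X] {F : E → X}

theorem deck_continuous (g : DeckG F) : Continuous (g : Equiv.Perm E) := g.2.1

theorem deck_apply (g : DeckG F) (x : E) : F ((g : Equiv.Perm E) x) = F x := g.2.2.2 x

theorem deck_ext [PreconnectedSpace E] (hF : IsCoveringMap F) {g h : DeckG F} {x : E}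
    (hx : (g : Equiv.Perm E) x = (h : Equiv.Perm E) x) : g = h := by
  have h1 : ((g : Equiv.Perm E) : E → E) = (h : Equiv.Perm E) :=
    hF.eq_of_comp_eq (deck_continuous g) (deck_continuous h)
      (funext fun y => (deck_apply g y).trans (deck_apply h y).symm) x hx
  exact Subtype.ext (Equiv.ext fun y => congrFun h1 y)

theorem exists_deck [SimplyConnectedSpace E] [LocallyPathConnectedSpace E] (hπ : IsCoveringMap F)
    {m m' : E} (h : F m = F m') : ∃ γ : DeckG F, (γ : Equiv.Perm E) m = m' := by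
  obtain ⟨f, ⟨hf1, hf2⟩, -⟩ :=
    hπ.existsUnique_continuousMap_lifts ⟨F, hπ.continuous⟩ m m' h.symm
  obtain ⟨g, ⟨hg1, hg2⟩, -⟩ :=
    hπ.existsUnique_continuousMap_lifts ⟨F, hπ.continuous⟩ m' m h
  have hf2' : ∀ x, F (f x) = F x := fun x => congrFun hf2 x
  have hg2' : ∀ x, F (g x) = F x := fun x => congrFun hg2 x
  have uni : ∀ (a : E) (f : C(E, E)), f a = a → (∀ x, F (f x) = F x) → ∀ x, f x = x := by
    intro a f hF1 hF2 x
    have hu := hπ.existsUnique_continuousMap_lifts ⟨F, hπ.continuous⟩ a a rfl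
    have h1 := hu.unique (y₁ := f) (y₂ := ContinuousMap.id E) ⟨hF1, funext hF2⟩ ⟨rfl, rfl⟩
    rw [h1]; rfl
  have hgf : ∀ x, g (f x) = x := uni m (g.comp f)
    (by show g (f m) = m; rw [hf1, hg1]) fun x => by
      show F (g (f x)) = F x
      rw [hg2', hf2']
  have hfg : ∀ x, f (g x) = x := uni m' (f.comp g)
    (by show f (g m') = m'; rw [hg1, hf1]) fun x => by
      show F (f (g x)) = F x
      rw [hf2', hg2']
  exact ⟨⟨{ toFun := f
            invFun := g
            left_inv := hgf
            right_inv := hfg }, f.continuous, g.continuous, hf2'⟩, hf1⟩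

end Top

section Quot

variable {E X : Type*} [PseudoMetricSpace E] [SimplyConnectedSpace E]
  [LocallyPathConnectedSpace E] [TopologicalSpace X] {F : E → X}

theorem isQuotientCoveringMap (hF : IsCoveringMap F) (hs : Function.Surjective F) {s₀ : ℝ}
    (hs₀ : 0 < s₀) (hinj : ∀ z, InjOn F (ball z s₀)) : IsQuotientCoveringMap F (DeckG F) where
  __ := hF.isQuotientMap hs
  continuous_const_smul g := deck_continuous g
  apply_eq_iff_mem_orbit {z z'} := by
    constructor
    · intro h
      obtain ⟨γ, hγ⟩ := exists_deck hF h.symm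
      exact ⟨γ, hγ⟩
    · rintro ⟨γ, rfl⟩
      exact deck_apply γ z'
  disjoint z := by
    refine ⟨ball z s₀, ball_mem_nhds z hs₀, ?_⟩
    rintro g ⟨_, ⟨u, hu, rfl⟩, hu'⟩
    have h1 : (g : Equiv.Perm E) u = u := hinj z hu' hu (deck_apply g u)
    exact deck_ext hF (g := g) (h := 1) h1

/-- The fundamental group of the base is virtually abelian if the deck group is. -/
theorem virtAb_of_deck (hF : IsCoveringMap F) (hs : Function.Surjective F) {s₀ : ℝ}
    (hs₀ : 0 < s₀) (hinj : ∀ z, InjOn F (ball z s₀)) {N : Subgroup (DeckG F)}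
    (hN : N.FiniteIndex) (hab : ∀ a ∈ N, ∀ b ∈ N, a * b = b * a) (x : X) :
    ∃ A : Subgroup (FundamentalGroup X x), A.FiniteIndex ∧ ∀ a ∈ A, ∀ b ∈ A, a * b = b * a := by
  obtain ⟨z, rfl⟩ := hs x
  let e : F ⁻¹' {F z} := ⟨z, rfl⟩
  let φ : FundamentalGroup X (F z) ≃* (DeckG F)ᵐᵒᵖ :=
    (isQuotientCoveringMap hF hs hs₀ hinj).fundamentalGroupEquiv e
  let ψ : FundamentalGroup X (F z) ≃* DeckG F := φ.trans (MulEquiv.inv' (DeckG F)).symm
  refine ⟨N.comap ψ.toMonoidHom, ?_, ?_⟩
  · constructor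
    rw [Subgroup.index_comap_of_surjective _ ψ.surjective]
    exact hN.index_ne_zero
  · intro a ha b hb
    apply ψ.injective
    rw [map_mul, map_mul]
    exact hab _ ha _ hb

end Quot

end Vale.Agent.P284.H113
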