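import Vale.Agent.P284.H113.Unif
import Vale.Agent.P284.H113.Deck

/-!
# Deck transformations are affine
-/

open Metric Set Filter Topology Uniformity
open scoped Manifold ContDiff

set_option linter.unusedSectionVars false

namespace Vale.Agent.P284.H113

variable {E : Type*} [NormedAddCommGroup E] [NormedSpace ℂ E] [FiniteDimensional ℂ E]

/-- An entire map with bounded derivative is affine. -/
theorem affine_of_bdd {g : E → E} (hg : Differentiable ℂ g) {C : ℝ}
    (hC : ∀ z, ‖fderiv ℂ g z‖ ≤ C) (v : E) : g v = g 0 + fderiv ℂ g 0 v := by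
  set f : ℂ → E := fun ζ => g (ζ • v) with hf
  have hfd : ∀ ζ, HasDerivAt f (fderiv ℂ g (ζ • v) v) ζ := by
    intro ζ
    have h1 : HasDerivAt (fun ζ : ℂ => ζ • v) v ζ := by
      simpa using (hasDerivAt_id ζ).smul_const v
    exact (hg (ζ • v)).hasFDerivAt.comp_hasDerivAt ζ h1
  have hfdiff : Differentiable ℂ f := fun ζ => (hfd ζ).differentiableAt
  have hderiv : ∀ ζ, deriv f ζ = fderiv ℂ g (ζ • v) v := fun ζ => (hfd ζ).deriv
  have hd2 : Differentiable ℂ (deriv f) := by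
    intro ζ
    exact (hfdiff.differentiableOn.deriv isOpen_univ).differentiableAt univ_mem
  have hb : Bornology.IsBounded (range (deriv f)) := by
    rw [isBounded_iff_forall_norm_le]
    refine ⟨C * ‖v‖, ?_⟩
    rintro _ ⟨ζ, rfl⟩
    rw [hderiv]
    exact (fderiv ℂ g (ζ • v)).le_of_opNorm_le (hC _) v
  have hconst : ∀ ζ, deriv f ζ = deriv f 0 := fun ζ => hd2.apply_eq_apply_of_bounded hb ζ 0
  have h0 : deriv f 0 = fderiv ℂ g 0 v := by rw [hderiv, zero_smul]
  have hk : ∀ ζ, deriv (fun ζ : ℂ => f ζ - ζ • fderiv ℂ g 0 v) ζ = 0 := by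
    intro ζ
    have h1 : HasDerivAt (fun ζ : ℂ => ζ • fderiv ℂ g 0 v) (fderiv ℂ g 0 v) ζ := by
      simpa using (hasDerivAt_id ζ).smul_const (fderiv ℂ g 0 v)
    have h2 := (hfdiff ζ).hasDerivAt.sub h1
    have h3 : deriv (fun ζ : ℂ => f ζ - ζ • fderiv ℂ g 0 v) ζ = deriv f ζ - fderiv ℂ g 0 v :=
      h2.deriv
    rw [h3, hconst, h0, sub_self]
  have h4 := is_const_of_deriv_eq_zero (f := fun ζ : ℂ => f ζ - ζ • fderiv ℂ g 0 v)
    (hfdiff.sub (by fun_prop)) hk 1 0
  simp only [one_smul, zero_smul, sub_zero, hf] at h4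
  rw [← h4]
  abel

variable {X : Type*} [TopologicalSpace X]
  [ChartedSpace E X] [IsManifold 𝓘(ℂ, E) ω X] {F : E → X}

/-- Deck transformations are holomorphic with bounded derivative. -/
theorem deck_diff (hF : MDifferentiable 𝓘(ℂ, E) 𝓘(ℂ, E) F) {C : ℝ} (hC0 : 0 ≤ C)
    (hC : ∀ p, ∃ e ∈ atlas E X, p ∈ e.source ∧ ∀ z, F z = p →
        ‖fderiv ℂ (e ∘ F) z‖ ≤ C ∧ (∀ v, ‖v‖ ≤ C * ‖fderiv ℂ (e ∘ F) z v‖) ∧
        (fderiv ℂ (e ∘ F) z).det ≠ 0) (g : DeckG F) :
    Differentiable ℂ (g : Equiv.Perm E) ∧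
      ∀ z, ‖fderiv ℂ (g : Equiv.Perm E) z‖ ≤ C * C := by
  have key : ∀ z, ∃ D : E →L[ℂ] E, HasFDerivAt (g : Equiv.Perm E) D z ∧
      ‖D‖ ≤ C * C := by
    intro z
    obtain ⟨e, he, hpe, hp⟩ := hC (F z)
    have hgz : F ((g : Equiv.Perm E) z) = F z := deck_apply g z
    obtain ⟨-, h2, h3⟩ := hp _ hgz
    obtain ⟨h1, -, -⟩ := hp z rfl
    set w := (g : Equiv.Perm E) z with hw
    have hwe : F w ∈ e.source := by rw [hgz]; exact hpe
    have hCD : ContDiffAt ℂ 1 (e ∘ F) w :=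
      (contDiffOn_chart hF he 1).contDiffAt ((isOpen_pre hF e).mem_nhds hwe)
    have hs := hCD.hasStrictFDerivAt one_ne_zero
    let A : E ≃L[ℂ] E := (fderiv ℂ (e ∘ F) w).toContinuousLinearEquivOfDetNeZero h3
    have hA : (A : E →L[ℂ] E) = fderiv ℂ (e ∘ F) w := by
      ext1 v; rfl
    rw [← hA] at hs
    have hli := hs.to_localInverse
    have hleft := hs.eventually_left_inverse
    have hcont : Tendsto (g : Equiv.Perm E) (𝓝 z) (𝓝 w) :=
      (deck_continuous g).tendsto z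
    have heq : (g : Equiv.Perm E) =ᶠ[𝓝 z]
        (hs.localInverse (e ∘ F) A w) ∘ (e ∘ F) := by
      filter_upwards [hcont.eventually hleft] with y hy
      rw [← hy]
      show _ = hs.localInverse (e ∘ F) A w (e (F y))
      rw [← deck_apply g y]
      rfl
    have hval : (e ∘ F) w = (e ∘ F) z := by
      show e (F w) = e (F z)
      rw [hgz]
    rw [hval] at hli
    have hD1 := (differentiableAt_chart hF he hpe).hasFDerivAt
    have hD := (hli.hasFDerivAt.comp z hD1).congr_of_eventuallyEq heq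
    refine ⟨_, hD, ?_⟩
    apply ContinuousLinearMap.opNorm_le_bound _ (by positivity)
    intro v
    have h4 := h2 (A.symm (fderiv ℂ (e ∘ F) z v))
    have h5 : fderiv ℂ (e ∘ F) w (A.symm (fderiv ℂ (e ∘ F) z v)) = fderiv ℂ (e ∘ F) z v :=
      A.apply_symm_apply _
    rw [h5] at h4
    refine h4.trans ?_
    rw [mul_assoc]
    exact mul_le_mul_of_nonneg_left ((fderiv ℂ (e ∘ F) z).le_of_opNorm_le h1 v) hC0
  refine ⟨fun z => ?_, fun z => ?_⟩
  · obtain ⟨D, hD, -⟩ := key z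
    exact hD.differentiableAt
  · obtain ⟨D, hD, hDn⟩ := key z
    rw [hD.fderiv]
    exact hDn

end Vale.Agent.P284.H113
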