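import Mathlib

/-!
# A criterion for covering maps (after P278.Bdl.B1)
-/

open Topology Set Filter Uniformity

namespace Vale.Agent.P284.H113

theorem isCoveringMap_of_plaques {M₁ N : Type*} [TopologicalSpace M₁] [TopologicalSpace N]
    (q : M₁ → N) (hqc : Continuous q) (hqo : IsOpenMap q) (hqs : Function.Surjective q)
    (P : M₁ → Set M₁)
    (hPo : ∀ x, IsOpen (P x)) (hxP : ∀ x, x ∈ P x)
    (h1 : ∀ x y, y ∈ P x → x ∈ P y)
    (inj : ∀ x, InjOn q (P x))
    (trP : ∀ x x', q x = q x' → q '' (P x) ⊆ q '' (P x')) :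
    IsCoveringMap q := by
  intro n
  obtain ⟨x₀, rfl⟩ := hqs n
  set U : Set N := q '' (P x₀) with hU
  have hUo : IsOpen U := hqo _ (hPo x₀)
  have hUx : q x₀ ∈ U := ⟨x₀, hxP x₀, rfl⟩
  let I : Type _ := {y : M₁ // q y = q x₀}
  let _ : TopologicalSpace I := ⊥
  have _ : DiscreteTopology I := ⟨rfl⟩
  -- existence of sheet
  have hex : ∀ z : M₁, q z ∈ U → ∃ y : I, z ∈ P y.1 := by
    rintro z ⟨p, hp, hpz⟩
    have hx₀ : x₀ ∈ P p := h1 _ _ hp
    obtain ⟨y, hy, hyx⟩ := trP p z hpz ⟨x₀, hx₀, rfl⟩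
    exact ⟨⟨y, hyx⟩, h1 _ _ hy⟩
  have huniq : ∀ (z : M₁) (y y' : I), z ∈ P y.1 → z ∈ P y'.1 → y = y' := by
    intro z y y' hy hy'
    exact Subtype.ext (inj z (h1 _ _ hy) (h1 _ _ hy') (y.2.trans y'.2.symm))
  have hsheet : ∀ (y : I) (u : N), u ∈ U → ∃ z ∈ P y.1, q z = u := by
    rintro y u ⟨p, hp, rfl⟩
    obtain ⟨z, hz, hzp⟩ := trP x₀ y.1 y.2.symm ⟨p, hp, rfl⟩
    exact ⟨z, hz, hzp⟩
  have _ : Nonempty I := ⟨⟨x₀, rfl⟩⟩
  choose! idx hidx using hex
  choose s hs hqs' using hsheet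
  refine IsEvenlyCovered.to_isEvenlyCovered_preimage (I := I) ⟨inferInstance, U, hUx, hUo,
    hUo.preimage hqc, ?_⟩
  refine ⟨{ toFun := fun z => (⟨q z.1, z.2⟩, idx z.1)
            invFun := fun w => ⟨s w.2 w.1.1 w.1.2, by
              show q _ ∈ U
              rw [hqs']; exact w.1.2⟩
            left_inv := ?_
            right_inv := ?_
            continuous_toFun := ?_
            continuous_invFun := ?_ }, ?_⟩
  · rintro ⟨z, hz⟩
    apply Subtype.ext
    have hz' : q z ∈ U := hz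
    exact inj _ (hs _ _ _) (hidx z hz') (hqs' _ _ _)
  · rintro ⟨⟨u, hu⟩, y⟩
    have e1 : q (s y u hu) = u := hqs' _ _ _
    refine Prod.ext (Subtype.ext e1) ?_
    exact huniq (s y u hu) _ _ (hidx _ (by rw [e1]; exact hu)) (hs _ _ _)
  · refine Continuous.prodMk ((hqc.comp continuous_subtype_val).subtype_mk _) ?_
    rw [continuous_discrete_rng]
    intro y
    have : (fun z : q ⁻¹' U => idx z.1) ⁻¹' {y} = Subtype.val ⁻¹' (P y.1) := by
      ext ⟨z, hz⟩
      constructor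
      · intro h
        have h' : idx z = y := h
        show z ∈ P y.1
        rw [← h']; exact hidx z hz
      · intro h
        exact huniq z _ _ (hidx z hz) h
    rw [this]
    exact (hPo _).preimage continuous_subtype_val
  · rw [continuous_induced_rng]
    rw [continuous_iff_continuousAt]
    rintro ⟨⟨u, hu⟩, y⟩
    -- neighborhoods in a product with a discrete space
    have hy : 𝓝 y = pure y := by rw [nhds_discrete]
    rw [ContinuousAt, nhds_prod_eq, hy, Filter.prod_pure, Filter.tendsto_map'_iff]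
    show Filter.Tendsto (fun w : U => s y w.1 w.2) (𝓝 ⟨u, hu⟩) (𝓝 (s y u hu))
    intro V hV
    -- V ∩ P y is a nhd; its image is a nhd of u
    obtain ⟨W, hWV, hWo, hsW⟩ := mem_nhds_iff.1
      (Filter.inter_mem hV ((hPo y.1).mem_nhds (hs y u hu)))
    have himg : IsOpen (q '' W) := hqo _ hWo
    have hu' : u ∈ q '' W := ⟨_, hsW, hqs' _ _ _⟩
    have : (Subtype.val : U → N) ⁻¹' (q '' W) ∈ 𝓝 (⟨u, hu⟩ : U) :=
      (himg.preimage continuous_subtype_val).mem_nhds hu'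
    rw [Filter.mem_map]
    refine Filter.mem_of_superset this ?_
    rintro ⟨w, hw⟩ ⟨z, hzW, hzw⟩
    have hz := hWV hzW
    have : s y w hw = z := inj y.1 (hs _ _ _) hz.2 ((hqs' _ _ _).trans hzw.symm)
    show s y w hw ∈ V
    rw [this]; exact hz.1
  · rintro ⟨z, hz⟩
    rfl

/-- A map with local inverses of uniform size onto a connected space is a covering map. -/
theorem covering_of_unif {E X : Type*} [PseudoMetricSpace E] [Nonempty E] [UniformSpace X]
    [PreconnectedSpace X] {F : E → X} (hF : Continuous F) {s₀ : ℝ} (hs₀ : 0 < s₀)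
    (hinj : ∀ z, InjOn F (Metric.ball z s₀))
    (hsec : ∀ s > 0, ∃ V ∈ 𝓤 X, ∀ z y, (F z, y) ∈ V → ∃ z' ∈ Metric.ball z s, F z' = y) :
    IsCoveringMap F ∧ Function.Surjective F := by
  have hopen : IsOpenMap F := by
    rw [isOpenMap_iff_nhds_le]
    intro z U hU
    rw [Filter.mem_map] at hU
    obtain ⟨s, hs, hsU⟩ := Metric.mem_nhds_iff.1 hU
    obtain ⟨V, hV, hVs⟩ := hsec s hs
    refine Filter.mem_of_superset (UniformSpace.ball_mem_nhds (F z) hV) ?_
    intro y hy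
    obtain ⟨z', hz', rfl⟩ := hVs z y hy
    exact hsU hz'
  have hsurj : Function.Surjective F := by
    rw [← Set.range_eq_univ]
    apply IsClopen.eq_univ _ (Set.range_nonempty F)
    refine ⟨?_, hopen.isOpen_range⟩
    obtain ⟨V, hV, hVs⟩ := hsec 1 one_pos
    rw [← isOpen_compl_iff, isOpen_iff_mem_nhds]
    intro y hy
    have h1 : {p | (p, y) ∈ V} ∈ 𝓝 y := mem_nhds_right y hV
    filter_upwards [h1] with p hp
    rintro ⟨z, rfl⟩
    obtain ⟨z', -, hz'⟩ := hVs z y hp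
    exact hy ⟨z', hz'⟩
  refine ⟨?_, hsurj⟩
  obtain ⟨V₀, hV₀, hVs⟩ := hsec s₀ hs₀
  obtain ⟨V, ⟨hV, hVo, hVsymm⟩, hVV₀⟩ := uniformity_hasBasis_open_symmetric.mem_iff.1 hV₀
  refine isCoveringMap_of_plaques F hF hopen hsurj
    (fun z => {z' | z' ∈ Metric.ball z s₀ ∧ (F z, F z') ∈ V}) ?_ ?_ ?_ ?_ ?_
  · intro z
    apply Metric.isOpen_ball.inter
    exact hVo.preimage (by fun_prop : Continuous fun z' => (F z, F z'))
  · intro z
    exact ⟨Metric.mem_ball_self hs₀, refl_mem_uniformity hV⟩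
  · rintro z z' ⟨h1, h2⟩
    exact ⟨Metric.mem_ball_comm.1 h1, hVsymm.symm _ _ h2⟩
  · intro z
    exact (hinj z).mono fun z' h => h.1
  · rintro z z' h _ ⟨p, ⟨-, hp⟩, rfl⟩
    rw [h] at hp
    obtain ⟨p', hp', hpp'⟩ := hVs z' (F p) (hVV₀ hp)
    exact ⟨p', ⟨hp', by rw [hpp']; exact hp⟩, hpp'⟩

end Vale.Agent.P284.H113
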