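import Mathlib

/-!
# P284: definitions for the dominability theorem
-/

open Metric Set Filter Topology
open scoped Manifold ContDiff

namespace Vale.Agent.P284.H113

/-- `E` is a finite-dimensional complex vector space. `h = exp φ` on `U ⊆ E` for a plurisubharmonic function `φ : U → [-∞, ∞)`: the function `h` is
nonnegative and upper semicontinuous, and for every closed holomorphic disc `g` in `U` and every
zero-free holomorphic function `Q` on the closed unit disc such that `h ∘ g ≤ |Q|` on the unit
circle, `h (g 0) ≤ |Q 0|`. -/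
structure IsExpPsh {E : Type*} [NormedAddCommGroup E] [NormedSpace ℂ E] (U : Set E) (h : E → ℝ) :
    Prop where
  nonneg : ∀ x ∈ U, 0 ≤ h x
  usc : UpperSemicontinuousOn h U
  disc : ∀ (g : ℂ → E) (Q : ℂ → ℂ), DiffContOnCl ℂ g (ball 0 1) →
    DiffContOnCl ℂ Q (ball 0 1) → (∀ ζ ∈ closedBall (0 : ℂ) 1, g ζ ∈ U ∧ Q ζ ≠ 0) →
    (∀ ζ ∈ sphere (0 : ℂ) 1, h (g ζ) ≤ ‖Q ζ‖) → h (g 0) ≤ ‖Q 0‖

/-- A singular Hermitian metric of semipositive curvature on the canonical bundle of the complex
manifold `X`, given by the exponentials `h e = exp φ_e` of its local weights: for a chart `e` with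
coordinates `z`, the squared length of `dz₁ ∧ ⋯ ∧ dz_n` is `exp (- φ_e)`, where `φ_e` is
plurisubharmonic and is not identically `-∞` on any nonempty open set. -/
structure IsCanonicalMetric {E : Type*} [NormedAddCommGroup E] [NormedSpace ℂ E] {X : Type*}
    [TopologicalSpace X] [ChartedSpace E X] (h : OpenPartialHomeomorph X E → E → ℝ) : Prop where
  expPsh : ∀ e ∈ atlas E X, IsExpPsh e.target (h e)
  nontrivial : ∀ e ∈ atlas E X, ∀ V ⊆ e.target, IsOpen V → V.Nonempty → ∃ x ∈ V, h e x ≠ 0
  change : ∀ e ∈ atlas E X, ∀ e' ∈ atlas E X, ∀ x ∈ e.source ∩ e'.source,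
    h e (e x) = h e' (e' x) * ‖(fderiv ℂ (e' ∘ e.symm) (e x)).det‖ ^ 2

/-- The canonical bundle of the complex manifold `X` is pseudo-effective: it has a singular
Hermitian metric of semipositive curvature. -/
def CanonicalPsef (E : Type*) [NormedAddCommGroup E] [NormedSpace ℂ E] (X : Type*)
    [TopologicalSpace X] [ChartedSpace E X] : Prop :=
  ∃ h : OpenPartialHomeomorph X E → E → ℝ, IsCanonicalMetric h

/-- `F : E' → X` is holomorphic and submersive at some point; `E` is the model space of `X`. -/
def IsDominating (E : Type*) [NormedAddCommGroup E] [NormedSpace ℂ E] {E' : Type*}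
    [NormedAddCommGroup E'] [NormedSpace ℂ E'] {X : Type*} [TopologicalSpace X]
    [ChartedSpace E X] (F : E' → X) : Prop :=
  MDifferentiable 𝓘(ℂ, E') 𝓘(ℂ, E) F ∧
    ∃ z, Function.Surjective (mfderiv 𝓘(ℂ, E') 𝓘(ℂ, E) F z)

/-- `G : E → X` is a surjective covering map which is invariant under the translations by the
vectors of a real basis of `E`. -/
def IsPeriodicCovering {E : Type*} [NormedAddCommGroup E] [NormedSpace ℂ E] {X : Type*}
    [TopologicalSpace X] (G : E → X) : Prop :=
  Function.Surjective G ∧ IsCoveringMap G ∧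
    ∃ B : Module.Basis (Fin (Module.finrank ℝ E)) ℝ E, ∀ i w, G (w + B i) = G w

/-- The group has an abelian subgroup of finite index. -/
def VirtuallyAbelian (G : Type*) [Group G] : Prop :=
  ∃ A : Subgroup G, A.FiniteIndex ∧ ∀ a ∈ A, ∀ b ∈ A, a * b = b * a

end Vale.Agent.P284.H113
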