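import Mathlib

/-!
# A Liouville theorem for exponentials of subharmonic functions on the plane
-/

open Metric Set Filter Topology

namespace Vale.Agent.P284.H113

/-- Products of nonnegative upper semicontinuous functions. -/
theorem usc_mul {α : Type*} [TopologicalSpace α] {f g : α → ℝ} {s : Set α} {x : α}
    (hf : UpperSemicontinuousWithinAt f s x) (hg : UpperSemicontinuousWithinAt g s x)
    (hf0 : ∀ y ∈ s, 0 ≤ f y) (hg0 : ∀ y ∈ s, 0 ≤ g y) (hx : x ∈ s) :
    UpperSemicontinuousWithinAt (fun y => f y * g y) s x := by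
  rw [upperSemicontinuousWithinAt_iff] at *
  intro y hy
  have hcont : Tendsto (fun ε : ℝ => (f x + ε) * (g x + ε)) (𝓝[>] 0) (𝓝 (f x * g x)) := by
    have h1 : Continuous fun ε : ℝ => (f x + ε) * (g x + ε) := by fun_prop
    have h2 := h1.tendsto 0
    simp only [add_zero] at h2
    exact h2.mono_left nhdsWithin_le_nhds
  obtain ⟨ε, hε, hε0⟩ := ((hcont.eventually (gt_mem_nhds hy)).and self_mem_nhdsWithin).exists
  have hε0' : 0 < ε := hε0
  filter_upwards [hf (f x + ε) (by linarith), hg (g x + ε) (by linarith), self_mem_nhdsWithin]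
    with z h1 h2 hz
  have h3 := hf0 z hz
  have h4 := hg0 z hz
  have h5 := hf0 x hx
  have h6 := hg0 x hx
  calc f z * g z ≤ (f x + ε) * (g x + ε) := mul_le_mul h1.le h2.le h4 (by linarith)
    _ < y := hε

/-- The function `f ≥ 0` is the exponential of a function subharmonic near `ζ`, in the weak form
of the sub-mean value property on small circles round `ζ`. -/
def LogSubAt (f : ℂ → ℝ) (ζ : ℂ) : Prop :=
  ∃ r > 0, ∀ t : ℝ, 0 < t → t ≤ r → ∀ Q : ℂ → ℂ, DiffContOnCl ℂ Q (ball 0 1) →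
    (∀ η ∈ closedBall (0 : ℂ) 1, Q η ≠ 0) →
    (∀ η ∈ sphere (0 : ℂ) 1, f (ζ + t * η) ≤ ‖Q η‖) → f ζ ≤ ‖Q 0‖

theorem const_of_bounded_aux {f : ℂ → ℝ} (h0 : ∀ ζ, 0 ≤ f ζ) (husc : UpperSemicontinuous f)
    {M : ℝ} (hM : ∀ ζ, f ζ ≤ M) (hsub : ∀ ζ, 0 < f ζ → LogSubAt f ζ) (b : ℂ) : f b ≤ f 0 := by
  by_contra hcon
  push Not at hcon
  -- choose `m`
  obtain ⟨m, hm0, hm1⟩ := exists_between hcon
  have hmpos : 0 < m := lt_of_le_of_lt (h0 0) hm0
  obtain ⟨ρ₀, hρ₀, hρ₀'⟩ := Metric.eventually_nhds_iff_ball.1 (husc 0 m hm0)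
  set ρ := ρ₀ / 2 with hρdef
  have hρ : 0 < ρ := by positivity
  have hρf : ∀ ζ : ℂ, ‖ζ‖ ≤ ρ → f ζ < m := by
    intro ζ hζ
    apply hρ₀'
    rw [mem_ball_zero_iff]
    linarith
  set R₀ := ‖b‖ with hR₀
  have hρR₀ : ρ < R₀ := by
    by_contra h
    push Not at h
    have := hρf b h
    linarith
  have hlog : 0 < Real.log (R₀ / ρ) := Real.log_pos (by rw [lt_div_iff₀ hρ]; linarith)
  -- choose `α`
  obtain ⟨α, hα, hα1⟩ : ∃ α > 0, m < f b * Real.exp (-(α * Real.log (R₀ / ρ))) := by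
    have hcont : Tendsto (fun α : ℝ => f b * Real.exp (-(α * Real.log (R₀ / ρ)))) (𝓝[>] 0)
        (𝓝 (f b)) := by
      have h1 : Continuous fun α : ℝ => f b * Real.exp (-(α * Real.log (R₀ / ρ))) := by fun_prop
      have h2 := h1.tendsto 0
      simp only [zero_mul, neg_zero, Real.exp_zero, mul_one] at h2
      exact h2.mono_left nhdsWithin_le_nhds
    obtain ⟨α, h1, h2⟩ := ((hcont.eventually (lt_mem_nhds hm1)).and self_mem_nhdsWithin).exists
    exact ⟨α, h2, h1⟩
  set m₁ := f b * Real.exp (-(α * Real.log (R₀ / ρ))) with hm₁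
  -- choose `R`
  obtain ⟨R, hRR₀, hR⟩ : ∃ R > R₀, M * Real.exp (-(α * Real.log (R / ρ))) < m := by
    have hcont : Tendsto (fun R : ℝ => M * Real.exp (-(α * Real.log (R / ρ)))) atTop
        (𝓝 (M * 0)) := by
      apply Tendsto.const_mul
      apply Real.tendsto_exp_neg_atTop_nhds_zero.comp
      apply Tendsto.const_mul_atTop hα
      exact Real.tendsto_log_atTop.comp (tendsto_id.atTop_div_const hρ)
    rw [mul_zero] at hcont
    obtain ⟨R, h1, h2⟩ := ((hcont.eventually (gt_mem_nhds hmpos)).and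
      (eventually_gt_atTop R₀)).exists
    exact ⟨R, h2, h1⟩
  have hRpos : 0 < R := by linarith [norm_nonneg b]
  -- choose `ε`
  obtain ⟨ε, hε, hε1⟩ : ∃ ε > 0, m * Real.exp (ε * R ^ 2) < m₁ := by
    have hcont : Tendsto (fun ε : ℝ => m * Real.exp (ε * R ^ 2)) (𝓝[>] 0) (𝓝 m) := by
      have h1 : Continuous fun ε : ℝ => m * Real.exp (ε * R ^ 2) := by fun_prop
      have h2 := h1.tendsto 0
      simp only [zero_mul, Real.exp_zero, mul_one] at h2
      exact h2.mono_left nhdsWithin_le_nhds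
    obtain ⟨ε, h1, h2⟩ := ((hcont.eventually (gt_mem_nhds hα1)).and self_mem_nhdsWithin).exists
    exact ⟨ε, h2, h1⟩
  -- the auxiliary function
  set E : ℂ → ℝ := fun ζ => Real.exp (-(α * Real.log (‖ζ‖ / ρ)) + ε * ‖ζ‖ ^ 2) with hE
  set H : ℂ → ℝ := fun ζ => f ζ * E ζ with hH
  set A : Set ℂ := {ζ | ρ ≤ ‖ζ‖ ∧ ‖ζ‖ ≤ R} with hA
  have hAc : IsCompact A := by
    have h1 : A = closedBall (0 : ℂ) R ∩ {ζ | ρ ≤ ‖ζ‖} := by
      ext ζ
      simp only [hA, mem_ofPred_eq, mem_inter_iff, mem_closedBall_zero_iff]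
      tauto
    rw [h1]
    exact (isCompact_closedBall _ _).inter_right (isClosed_le continuous_const continuous_norm)
  have hbA : b ∈ A := ⟨hρR₀.le, hRR₀.le⟩
  have hEpos : ∀ ζ, 0 < E ζ := fun ζ => Real.exp_pos _
  have hEc : ContinuousOn E A := by
    have h1 : ContinuousOn (fun ζ : ℂ => Real.log (‖ζ‖ / ρ)) A := by
      apply ContinuousOn.log
      · fun_prop
      · intro ζ hζ
        have : 0 < ‖ζ‖ := lt_of_lt_of_le hρ hζ.1
        positivity
    apply Real.continuous_exp.comp_continuousOn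
    apply ContinuousOn.add
    · exact (continuousOn_const.mul h1).neg
    · fun_prop
  have hHusc : UpperSemicontinuousOn H A := by
    intro ζ hζ
    exact usc_mul (husc.upperSemicontinuousWithinAt A ζ)
      ((hEc ζ hζ).upperSemicontinuousWithinAt) (fun y _ => h0 y) (fun y _ => (hEpos y).le) hζ
  obtain ⟨ζ', hζ'A, hmax⟩ := hHusc.exists_isMaxOn ⟨b, hbA⟩ hAc
  have hHb : m₁ ≤ H ζ' := by
    refine le_trans ?_ (hmax hbA)
    show m₁ ≤ f b * Real.exp _
    rw [hm₁]
    apply mul_le_mul_of_nonneg_left _ (h0 b)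
    apply Real.exp_le_exp.2
    have : 0 ≤ ε * ‖b‖ ^ 2 := by positivity
    linarith
  have hm₁pos : 0 < m₁ := by
    refine lt_trans ?_ hε1
    positivity
  -- the maximum is in the interior
  have hexpR : ∀ x : ℝ, 0 ≤ x → x ≤ R → Real.exp (ε * x ^ 2) ≤ Real.exp (ε * R ^ 2) := by
    intro x hx hxR
    apply Real.exp_le_exp.2
    apply mul_le_mul_of_nonneg_left _ hε.le
    exact pow_le_pow_left₀ hx hxR 2
  have hin1 : ρ < ‖ζ'‖ := by
    refine lt_of_le_of_ne hζ'A.1 ?_
    intro heq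
    have h1 : H ζ' = f ζ' * Real.exp (ε * ‖ζ'‖ ^ 2) := by
      show f ζ' * Real.exp _ = _
      rw [← heq, div_self hρ.ne', Real.log_one, mul_zero, neg_zero, zero_add]
    have h2 := hρf ζ' heq.symm.le
    have h3 : f ζ' * Real.exp (ε * ‖ζ'‖ ^ 2) ≤ m * Real.exp (ε * R ^ 2) :=
      mul_le_mul h2.le (hexpR _ (norm_nonneg _) hζ'A.2) (Real.exp_pos _).le hmpos.le
    linarith
  have hin2 : ‖ζ'‖ < R := by
    refine lt_of_le_of_ne hζ'A.2 ?_
    intro heq
    have h1 : H ζ' = f ζ' * Real.exp (-(α * Real.log (R / ρ))) * Real.exp (ε * R ^ 2) := by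
      show f ζ' * Real.exp _ = _
      rw [heq, Real.exp_add, mul_assoc]
    have h3 : f ζ' * Real.exp (-(α * Real.log (R / ρ))) ≤ m :=
      (mul_le_mul_of_nonneg_right (hM ζ') (Real.exp_pos _).le).trans hR.le
    have h4 := mul_le_mul_of_nonneg_right h3 (Real.exp_pos (ε * R ^ 2)).le
    linarith
  have hHpos : 0 < H ζ' := lt_of_lt_of_le hm₁pos hHb
  have hfpos : 0 < f ζ' := by
    by_contra h
    have h1 : f ζ' = 0 := le_antisymm (not_lt.1 h) (h0 _)
    have : H ζ' = 0 := by show f ζ' * E ζ' = 0; rw [h1, zero_mul]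
    linarith
  obtain ⟨r, hr, hQ⟩ := hsub ζ' hfpos
  set s := ‖ζ'‖ with hs
  have hspos : 0 < s := by linarith
  have hζ'0 : ζ' ≠ 0 := norm_pos_iff.1 hspos
  obtain ⟨t, ht0, htr, ht1, ht2⟩ : ∃ t : ℝ, 0 < t ∧ t ≤ r ∧ t ≤ s - ρ ∧ t ≤ R - s := by
    refine ⟨min r (min (s - ρ) (R - s)), ?_, min_le_left _ _,
      (min_le_right _ _).trans (min_le_left _ _), (min_le_right _ _).trans (min_le_right _ _)⟩
    exact lt_min hr (lt_min (by linarith) (by linarith))
  have hts : t < s := by linarith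
  -- the comparison function
  let L : ℂ → ℂ := fun η => (Real.log (H ζ') : ℂ) + α * ((Real.log (s / ρ) : ℂ) +
    Complex.log (1 + t * η / ζ')) - ε * ((s : ℂ) ^ 2 + 2 * ((starRingEnd ℂ) ζ' * (t * η)) + t ^ 2)
  have hslit : ∀ η ∈ closedBall (0 : ℂ) 1, 1 + t * η / ζ' ∈ Complex.slitPlane := by
    intro η hη
    left
    have h1 : ‖(t : ℂ) * η / ζ'‖ < 1 := by
      rw [norm_div, norm_mul, Complex.norm_real, Real.norm_of_nonneg ht0.le, div_lt_one hspos]
      have : ‖η‖ ≤ 1 := by simpa using hη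
      nlinarith
    have h2 := (abs_le.1 ((Complex.abs_re_le_norm ((t : ℂ) * η / ζ')))).1
    rw [Complex.add_re, Complex.one_re]
    linarith
  have hLd : ∀ η ∈ closedBall (0 : ℂ) 1, DifferentiableAt ℂ L η := by
    intro η hη
    have h1 : DifferentiableAt ℂ (fun η : ℂ => Complex.log (1 + t * η / ζ')) η := by
      apply DifferentiableAt.clog
      · fun_prop
      · exact hslit η hη
    apply DifferentiableAt.sub
    · apply DifferentiableAt.add (differentiableAt_const _)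
      exact ((differentiableAt_const _).add h1).const_mul _
    · fun_prop
  have hLc : DiffContOnCl ℂ (fun η => Complex.exp (L η)) (ball 0 1) := by
    constructor
    · intro η hη
      exact ((hLd η (ball_subset_closedBall hη)).cexp).differentiableWithinAt
    · rw [closure_ball _ one_ne_zero]
      intro η hη
      exact ((hLd η hη).cexp).continuousAt.continuousWithinAt
  have hkey := hQ t ht0 htr (fun η => Complex.exp (L η)) hLc (fun η _ => Complex.exp_ne_zero _) ?_
  · -- contradiction at the centre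
    have h1 : (L 0).re = Real.log (H ζ') + α * Real.log (s / ρ) - ε * (s ^ 2 + t ^ 2) := by
      simp only [L, mul_zero, zero_div, add_zero, Complex.log_one]
      have : ((Real.log (H ζ') : ℂ) + α * (Real.log (s / ρ) : ℂ) - ε * ((s : ℂ) ^ 2 + t ^ 2)) =
          ((Real.log (H ζ') + α * Real.log (s / ρ) - ε * (s ^ 2 + t ^ 2) : ℝ) : ℂ) := by
        push_cast; ring
      rw [this, Complex.ofReal_re]
    rw [Complex.norm_exp, h1] at hkey
    have h2 : Real.exp (Real.log (H ζ') + α * Real.log (s / ρ) - ε * (s ^ 2 + t ^ 2)) =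
        f ζ' * Real.exp (-(ε * t ^ 2)) := by
      have : Real.log (H ζ') + α * Real.log (s / ρ) - ε * (s ^ 2 + t ^ 2) =
          Real.log (H ζ') + (-(-(α * Real.log (s / ρ)) + ε * s ^ 2)) + (-(ε * t ^ 2)) := by ring
      rw [this, Real.exp_add, Real.exp_add, Real.exp_log hHpos]
      show f ζ' * Real.exp (-(α * Real.log (s / ρ)) + ε * s ^ 2) * _ * _ = _
      rw [mul_assoc (f ζ'), ← Real.exp_add, add_neg_cancel, Real.exp_zero, mul_one]
    rw [h2] at hkey
    have h3 : Real.exp (-(ε * t ^ 2)) < 1 := by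
      rw [Real.exp_lt_one_iff]
      have : 0 < ε * t ^ 2 := by positivity
      linarith
    nlinarith
  · -- domination on the circle
    intro η hη
    have hη1 : ‖η‖ = 1 := by simpa using hη
    have hηc : η ∈ closedBall (0 : ℂ) 1 := sphere_subset_closedBall hη
    set ζ := ζ' + t * η with hζ
    have hn : ‖(t : ℂ) * η‖ = t := by
      rw [norm_mul, Complex.norm_real, Real.norm_of_nonneg ht0.le, hη1, mul_one]
    have hζA : ζ ∈ A := by
      constructor
      · have h1 : ‖ζ'‖ - ‖(t : ℂ) * η‖ ≤ ‖ζ' + t * η‖ := by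
          have := norm_sub_le (ζ' + t * η) (t * η)
          rw [add_sub_cancel_right] at this
          linarith
        rw [hn] at h1
        linarith
      · have h1 := norm_add_le ζ' (t * η)
        rw [hn] at h1
        linarith
    have hζpos : 0 < ‖ζ‖ := lt_of_lt_of_le hρ hζA.1
    have h1 : f ζ * E ζ ≤ H ζ' := hmax hζA
    have hratio : ‖1 + t * η / ζ'‖ = ‖ζ‖ / s := by
      rw [hζ, hs, ← norm_div, add_div, div_self hζ'0]
    have hsq : ‖ζ‖ ^ 2 = s ^ 2 + 2 * ((starRingEnd ℂ) ζ' * (t * η)).re + t ^ 2 := by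
      have a0 : (ζ' * (starRingEnd ℂ) ((t : ℂ) * η)).re = ((starRingEnd ℂ) ζ' * (t * η)).re := by
        simp only [Complex.mul_re, Complex.conj_re, Complex.conj_im]
        ring
      have a1 : t ^ 2 = Complex.normSq (t * η) := by
        rw [Complex.normSq_eq_norm_sq, hn]
      rw [a1, hs, ← Complex.normSq_eq_norm_sq, ← Complex.normSq_eq_norm_sq, hζ,
        Complex.normSq_add, a0]
      ring
    have h2 : (L η).re = Real.log (H ζ') + α * Real.log (‖ζ‖ / ρ) - ε * ‖ζ‖ ^ 2 := by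
      have e1 : (α : ℂ) * ((Real.log (s / ρ) : ℂ) + Complex.log (1 + t * η / ζ')) =
          (α : ℂ) * ((Real.log (s / ρ) : ℂ) + Complex.log (1 + t * η / ζ')) := rfl
      have e2 : ((α : ℂ) * ((Real.log (s / ρ) : ℂ) + Complex.log (1 + t * η / ζ'))).re =
          α * Real.log (‖ζ‖ / ρ) := by
        rw [Complex.re_ofReal_mul, Complex.add_re, Complex.ofReal_re, Complex.log_re, hratio,
          ← Real.log_mul (by positivity) (by positivity)]
        congr 2
        field_simp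
      have e3 : ((ε : ℂ) * ((s : ℂ) ^ 2 + 2 * ((starRingEnd ℂ) ζ' * (t * η)) + t ^ 2)).re =
          ε * ‖ζ‖ ^ 2 := by
        rw [Complex.re_ofReal_mul, hsq]
        congr 1
        have a1 : ((s : ℂ) ^ 2).re = s ^ 2 := by rw [← Complex.ofReal_pow, Complex.ofReal_re]
        have a2 : ((t : ℂ) ^ 2).re = t ^ 2 := by rw [← Complex.ofReal_pow, Complex.ofReal_re]
        have a3 : (2 * ((starRingEnd ℂ) ζ' * (t * η))).re =
            2 * ((starRingEnd ℂ) ζ' * (t * η)).re := by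
          have : (2 : ℂ) = ((2 : ℝ) : ℂ) := by norm_num
          rw [this, Complex.re_ofReal_mul]
        rw [Complex.add_re, Complex.add_re, a1, a2, a3]
      show ((Real.log (H ζ') : ℂ) + _ - _).re = _
      rw [Complex.sub_re, Complex.add_re, Complex.ofReal_re, e2, e3]
    show f ζ ≤ ‖Complex.exp (L η)‖
    rw [Complex.norm_exp, h2]
    have h3 : Real.exp (Real.log (H ζ') + α * Real.log (‖ζ‖ / ρ) - ε * ‖ζ‖ ^ 2) =
        H ζ' * (E ζ)⁻¹ := by
      have : Real.log (H ζ') + α * Real.log (‖ζ‖ / ρ) - ε * ‖ζ‖ ^ 2 =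
          Real.log (H ζ') + (-(-(α * Real.log (‖ζ‖ / ρ)) + ε * ‖ζ‖ ^ 2)) := by ring
      rw [this, Real.exp_add, Real.exp_log hHpos, Real.exp_neg]
    rw [h3, ← div_eq_mul_inv, le_div_iff₀ (hEpos ζ)]
    exact h1

/-- **Liouville theorem.** A bounded function on the plane which is the exponential of a
subharmonic function is constant. -/
theorem const_of_bounded {f : ℂ → ℝ} (h0 : ∀ ζ, 0 ≤ f ζ) (husc : UpperSemicontinuous f)
    {M : ℝ} (hM : ∀ ζ, f ζ ≤ M) (hsub : ∀ ζ, 0 < f ζ → LogSubAt f ζ) (a b : ℂ) : f a = f b := by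
  have key : ∀ a b : ℂ, f b ≤ f a := by
    intro a b
    have h := const_of_bounded_aux (f := fun ζ => f (a + ζ)) (fun ζ => h0 _)
      (husc.comp (by fun_prop : Continuous fun ζ => a + ζ)) (fun ζ => hM _) ?_ (b - a)
    · simpa using h
    · intro ζ hζ
      obtain ⟨r, hr, h⟩ := hsub _ hζ
      refine ⟨r, hr, fun t h1 h2 Q h3 h4 h5 => h t h1 h2 Q h3 h4 fun η hη => ?_⟩
      have h6 : f (a + (ζ + t * η)) ≤ ‖Q η‖ := h5 η hη
      rwa [← add_assoc] at h6
  exact le_antisymm (key b a) (key a b)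

end Vale.Agent.P284.H113
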