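import Vale.Agent.P284.H113.Defs
import Vale.Agent.P284.H113.Liou
import Vale.Agent.P268.Hol

/-!
# The pull back of the canonical metric
-/

open Metric Set Filter Topology
open scoped Manifold ContDiff

set_option linter.unusedSectionVars false

namespace Vale.Agent.P284.H113

variable {E : Type*} [NormedAddCommGroup E] [NormedSpace ℂ E] [FiniteDimensional ℂ E] {X : Type*} [TopologicalSpace X] [ChartedSpace E X]
  [IsManifold 𝓘(ℂ, E) ω X]

theorem differentiableOn_chart {E' : Type*} [NormedAddCommGroup E'] [NormedSpace ℂ E'] [FiniteDimensional ℂ E'] {F : E' → X}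
    (hF : MDifferentiable 𝓘(ℂ, E') 𝓘(ℂ, E) F) {e : OpenPartialHomeomorph X E}
    (he : e ∈ atlas E X) : DifferentiableOn ℂ (e ∘ F) (F ⁻¹' e.source) := by
  intro z hz
  have h1 : MDifferentiableAt 𝓘(ℂ, E) 𝓘(ℂ, E) e (F z) :=
    (mdifferentiable_of_mem_atlas he).1.mdifferentiableAt (e.open_source.mem_nhds hz)
  have h2 := h1.comp z (hF z)
  exact (mdifferentiableAt_iff_differentiableAt.1 h2).differentiableWithinAt

theorem isOpen_pre {E' : Type*} [NormedAddCommGroup E'] [NormedSpace ℂ E'] [FiniteDimensional ℂ E'] {F : E' → X}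
    (hF : MDifferentiable 𝓘(ℂ, E') 𝓘(ℂ, E) F) (e : OpenPartialHomeomorph X E) :
    IsOpen (F ⁻¹' e.source) := e.open_source.preimage hF.continuous

theorem differentiableAt_chart {E' : Type*} [NormedAddCommGroup E'] [NormedSpace ℂ E'] [FiniteDimensional ℂ E'] {F : E' → X}
    (hF : MDifferentiable 𝓘(ℂ, E') 𝓘(ℂ, E) F) {e : OpenPartialHomeomorph X E}
    (he : e ∈ atlas E X) {z : E'} (hz : F z ∈ e.source) : DifferentiableAt ℂ (e ∘ F) z :=
  (differentiableOn_chart hF he).differentiableAt ((isOpen_pre hF e).mem_nhds hz)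

theorem contDiffOn_chart {E' : Type*} [NormedAddCommGroup E'] [NormedSpace ℂ E'] [FiniteDimensional ℂ E'] {F : E' → X}
    (hF : MDifferentiable 𝓘(ℂ, E') 𝓘(ℂ, E) F) {e : OpenPartialHomeomorph X E}
    (he : e ∈ atlas E X) (k : ℕ) : ContDiffOn ℂ k (e ∘ F) (F ⁻¹' e.source) :=
  P268.contDiffOn_of_differentiableOn (isOpen_pre hF e) (differentiableOn_chart hF he) k

theorem fderiv_chart_change {E' : Type*} [NormedAddCommGroup E'] [NormedSpace ℂ E'] [FiniteDimensional ℂ E'] {F : E' → X}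
    (hF : MDifferentiable 𝓘(ℂ, E') 𝓘(ℂ, E) F) {e e' : OpenPartialHomeomorph X E}
    (he : e ∈ atlas E X) (he' : e' ∈ atlas E X) {z : E'} (hz : F z ∈ e.source)
    (hz' : F z ∈ e'.source) :
    fderiv ℂ (e' ∘ F) z = (fderiv ℂ (e' ∘ e.symm) (e (F z))).comp (fderiv ℂ (e ∘ F) z) := by
  have h1 : MDifferentiableAt 𝓘(ℂ, E) 𝓘(ℂ, E) e.symm (e (F z)) :=
    (mdifferentiable_of_mem_atlas he).2.mdifferentiableAt
      (e.open_target.mem_nhds (e.map_source hz))
  have h2 : MDifferentiableAt 𝓘(ℂ, E) 𝓘(ℂ, E) e' (e.symm (e (F z))) := by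
    rw [e.left_inv hz]
    exact (mdifferentiable_of_mem_atlas he').1.mdifferentiableAt (e'.open_source.mem_nhds hz')
  have h3 := h2.comp _ h1
  have h4 : DifferentiableAt ℂ (e' ∘ e.symm) (e (F z)) :=
    mdifferentiableAt_iff_differentiableAt.1 h3
  have h5 : e' ∘ F =ᶠ[𝓝 z] (e' ∘ e.symm) ∘ (e ∘ F) := by
    filter_upwards [(isOpen_pre hF e).mem_nhds hz] with y hy
    show e' (F y) = e' (e.symm (e (F y)))
    rw [e.left_inv hy]
  rw [h5.fderiv_eq]
  exact fderiv_comp z (g := e' ∘ e.symm) (f := e ∘ F) h4 (differentiableAt_chart hF he hz)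

/-- The function `h · |det D F|²`. -/
noncomputable def wt (h : OpenPartialHomeomorph X E → E → ℝ) (F : E → X) (z : E) :
    ℝ :=
  h (chartAt E (F z)) (chartAt E (F z) (F z)) *
    ‖(fderiv ℂ (chartAt E (F z) ∘ F) z).det‖ ^ 2

variable {h : OpenPartialHomeomorph X E → E → ℝ} {F : E → X}

theorem det_comp (A B : E →L[ℂ] E) : (A.comp B).det = A.det * B.det := by
  show LinearMap.det ((A : E →ₗ[ℂ] E) ∘ₗ (B : E →ₗ[ℂ] E)) = _
  rw [LinearMap.det_comp]

theorem wt_eq (hh : IsCanonicalMetric h) (hF : MDifferentiable 𝓘(ℂ, E) 𝓘(ℂ, E) F)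
    {e : OpenPartialHomeomorph X E} (he : e ∈ atlas E X) {z : E}
    (hz : F z ∈ e.source) :
    wt h F z = h e (e (F z)) * ‖(fderiv ℂ (e ∘ F) z).det‖ ^ 2 := by
  have hc := chart_mem_atlas E (F z)
  have hzc := mem_chart_source E (F z)
  rw [wt, hh.change _ hc e he (F z) ⟨hzc, hz⟩, fderiv_chart_change hF hc he hzc hz, det_comp,
    norm_mul, mul_pow, mul_assoc]

theorem wt_nonneg (hh : IsCanonicalMetric h) (z : E) : 0 ≤ wt h F z := by
  apply mul_nonneg _ (by positivity)
  exact (hh.expPsh _ (chart_mem_atlas E (F z))).nonneg _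
    (OpenPartialHomeomorph.map_source _ (mem_chart_source E (F z)))

theorem continuousOn_det (hF : MDifferentiable 𝓘(ℂ, E) 𝓘(ℂ, E) F)
    {e : OpenPartialHomeomorph X E} (he : e ∈ atlas E X) :
    DifferentiableOn ℂ (fun z => (fderiv ℂ (e ∘ F) z).det) (F ⁻¹' e.source) := by
  have h1 : ContDiffOn ℂ 2 (e ∘ F) (F ⁻¹' e.source) := contDiffOn_chart hF he 2
  have h2 : DifferentiableOn ℂ (fun z => fderiv ℂ (e ∘ F) z) (F ⁻¹' e.source) :=
    (h1.fderiv_of_isOpen (m := 1) (isOpen_pre hF e) (by norm_num)).differentiableOn one_ne_zero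
  have h3 : ContDiff ℂ 1 (fun A : E →L[ℂ] E => A.det) := by
    let B := Module.finBasis ℂ E
    have h4 : (fun A : E →L[ℂ] E => A.det) =
        fun A => ∑ σ : Equiv.Perm (Fin (Module.finrank ℂ E)),
          ((Equiv.Perm.sign σ : ℤ) : ℂ) *
            ∏ i, (LinearMap.toContinuousLinearMap (B.coord (σ i))) (A (B i)) := by
      funext A
      have h5 : A.det = (LinearMap.toMatrix B B (A : E →ₗ[ℂ] E)).det := by
        rw [LinearMap.det_toMatrix]
      rw [h5, Matrix.det_apply']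
      apply Finset.sum_congr rfl
      intro σ _
      congr 1
      apply Finset.prod_congr rfl
      intro i _
      rw [LinearMap.toMatrix_apply]
      rfl
    rw [h4]
    apply ContDiff.sum
    intro σ _
    apply contDiff_const.mul
    apply contDiff_prod
    intro i _
    fun_prop
  exact (h3.differentiable one_ne_zero).comp_differentiableOn h2

/-- `w` is upper semicontinuous. -/
theorem wt_usc (hh : IsCanonicalMetric h) (hF : MDifferentiable 𝓘(ℂ, E) 𝓘(ℂ, E) F) :
    UpperSemicontinuous (wt h F) := by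
  intro z
  set e := chartAt E (F z) with he
  have hea := chart_mem_atlas E (F z)
  rw [← he] at hea
  have hz : F z ∈ e.source := mem_chart_source E (F z)
  have ho := isOpen_pre hF e
  have h1 : UpperSemicontinuousWithinAt (fun y => h e (e (F y)) *
      ‖(fderiv ℂ (e ∘ F) y).det‖ ^ 2) (F ⁻¹' e.source) z := by
    refine usc_mul (f := fun y => h e (e (F y)))
      (g := fun y => ‖(fderiv ℂ (e ∘ F) y).det‖ ^ 2) ?_ ?_ ?_ ?_ hz
    · have h2 := (hh.expPsh e hea).usc (e (F z)) (e.map_source hz)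
      have h3 : ContinuousWithinAt (e ∘ F) (F ⁻¹' e.source) z :=
        (differentiableOn_chart hF hea).continuousOn z hz
      rw [upperSemicontinuousWithinAt_iff]
      intro y hy
      have h4 : Tendsto (e ∘ F) (𝓝[F ⁻¹' e.source] z) (𝓝[e.target] (e (F z))) :=
        tendsto_nhdsWithin_iff.2 ⟨h3, by
          filter_upwards [self_mem_nhdsWithin] with x hx using e.map_source hx⟩
      exact h4.eventually (h2 y hy)
    · apply ContinuousWithinAt.upperSemicontinuousWithinAt
      exact (((continuousOn_det hF hea).continuousOn z hz).norm).pow 2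
    · exact fun y hy => (hh.expPsh e hea).nonneg _ (e.map_source hy)
    · exact fun y _ => by positivity
  rw [upperSemicontinuousWithinAt_iff] at h1
  intro y hy
  rw [wt_eq hh hF hea hz] at hy
  have h2 := h1 y hy
  rw [ho.nhdsWithin_eq hz] at h2
  filter_upwards [h2, ho.mem_nhds hz] with x hx hx'
  rw [wt_eq hh hF hea hx']
  exact hx

/-- `w` is log-subharmonic along complex lines. -/
theorem wt_logSub (hh : IsCanonicalMetric h) (hF : MDifferentiable 𝓘(ℂ, E) 𝓘(ℂ, E) F)
    (a v : E) (ζ : ℂ) (hw : 0 < wt h F (a + ζ • v)) :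
    LogSubAt (fun ζ => wt h F (a + ζ • v)) ζ := by
  set z := a + ζ • v with hzdef
  set e := chartAt E (F z) with he
  have hea := chart_mem_atlas E (F z)
  rw [← he] at hea
  have hz : F z ∈ e.source := mem_chart_source E (F z)
  have ho := isOpen_pre hF e
  set d : E → ℂ := fun y => (fderiv ℂ (e ∘ F) y).det with hd
  have hdd : DifferentiableOn ℂ d (F ⁻¹' e.source) := continuousOn_det hF hea
  have hdz : d z ≠ 0 := by
    intro h0
    rw [wt_eq hh hF hea hz] at hw
    have : (fderiv ℂ (e ∘ F) z).det = 0 := h0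
    rw [this] at hw
    simp at hw
  have hgood : ∀ᶠ y in 𝓝 z, F y ∈ e.source ∧ d y ≠ 0 := by
    filter_upwards [ho.mem_nhds hz, (hdd.continuousOn.continuousAt
      (ho.mem_nhds hz)).eventually_ne hdz] with y h1 h2 using ⟨h1, h2⟩
  obtain ⟨r₁, hr₁, hr₁'⟩ := Metric.eventually_nhds_iff_ball.1 hgood
  have hden : 0 < ‖v‖ + 1 := by positivity
  set r := r₁ / (2 * (‖v‖ + 1)) with hr
  have hrpos : 0 < r := by positivity
  refine ⟨r, hrpos, ?_⟩
  intro t ht0 htr Q hQ hQ0 hdom
  have hline : ∀ η ∈ closedBall (0 : ℂ) 1, a + (ζ + t * η) • v ∈ ball z r₁ := by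
    intro η hη
    have hη1 : ‖η‖ ≤ 1 := by simpa using hη
    rw [mem_ball, dist_eq_norm, hzdef]
    have : a + (ζ + t * η) • v - (a + ζ • v) = (t * η) • v := by
      rw [add_smul]; abel
    rw [this, norm_smul, norm_mul, Complex.norm_real, Real.norm_of_nonneg ht0.le]
    have h1 : t * ‖η‖ ≤ r := by nlinarith
    have h2 : r * ‖v‖ < r₁ := by
      rw [hr, div_mul_eq_mul_div, div_lt_iff₀ (by positivity)]
      nlinarith [norm_nonneg v]
    calc t * ‖η‖ * ‖v‖ ≤ r * ‖v‖ := mul_le_mul_of_nonneg_right h1 (norm_nonneg v)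
      _ < r₁ := h2
  set ℓ : ℂ → E := fun η => a + (ζ + t * η) • v with hℓ
  have hℓd : Differentiable ℂ ℓ := by
    rw [hℓ]; fun_prop
  have hmaps : ∀ η ∈ closedBall (0 : ℂ) 1, F (ℓ η) ∈ e.source ∧ d (ℓ η) ≠ 0 := fun η hη =>
    hr₁' _ (hline η hη)
  have hg : ∀ η ∈ closedBall (0 : ℂ) 1, DifferentiableAt ℂ (fun η => e (F (ℓ η))) η := by
    intro η hη
    exact (differentiableAt_chart hF hea (hmaps η hη).1).comp η (hℓd η)
  have hdℓ : ∀ η ∈ closedBall (0 : ℂ) 1, DifferentiableAt ℂ (fun η => d (ℓ η)) η := by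
    intro η hη
    exact (hdd.differentiableAt (ho.mem_nhds (hmaps η hη).1)).comp η (hℓd η)
  have key := (hh.expPsh e hea).disc (fun η => e (F (ℓ η))) (fun η => Q η / d (ℓ η) ^ 2) ?_ ?_ ?_ ?_
  · -- conclusion
    have h0 : (0 : ℂ) ∈ closedBall (0 : ℂ) 1 := by simp
    have h1 : ℓ 0 = z := by simp [hℓ, hzdef]
    simp only [h1] at key
    show wt h F z ≤ _
    rw [wt_eq hh hF hea hz]
    rw [norm_div, norm_pow, le_div_iff₀ (by positivity)] at key
    exact key
  · constructor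
    · intro η hη
      exact (hg η (ball_subset_closedBall hη)).differentiableWithinAt
    · rw [closure_ball _ one_ne_zero]
      intro η hη
      exact (hg η hη).continuousAt.continuousWithinAt
  · constructor
    · intro η hη
      have hη' := ball_subset_closedBall hη
      exact (hQ.differentiableOn η hη).div ((hdℓ η hη').pow 2).differentiableWithinAt
        (pow_ne_zero _ (hmaps η hη').2)
    · have hc := hQ.continuousOn
      rw [closure_ball _ one_ne_zero] at hc ⊢
      intro η hη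
      exact (hc η hη).div ((hdℓ η hη).continuousAt.continuousWithinAt.pow 2)
        (pow_ne_zero _ (hmaps η hη).2)
  · intro η hη
    exact ⟨e.map_source (hmaps η hη).1, div_ne_zero (hQ0 η hη) (pow_ne_zero _ (hmaps η hη).2)⟩
  · intro η hη
    have hη' := sphere_subset_closedBall hη
    have h1 := hdom η hη
    have h2 := (hmaps η hη').2
    have h3 : wt h F (ℓ η) ≤ ‖Q η‖ := h1
    rw [wt_eq hh hF hea (hmaps η hη').1] at h3
    rw [norm_div, norm_pow, le_div_iff₀ (by positivity)]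
    exact h3

/-- If `w` is bounded then it is constant. -/
theorem wt_const (hh : IsCanonicalMetric h) (hF : MDifferentiable 𝓘(ℂ, E) 𝓘(ℂ, E) F)
    {M : ℝ} (hM : ∀ z, wt h F z ≤ M) (a b : E) : wt h F a = wt h F b := by
  have h1 := const_of_bounded (f := fun ζ : ℂ => wt h F (a + ζ • (b - a)))
    (fun ζ => wt_nonneg hh _) ((wt_usc hh hF).comp (by fun_prop :
      Continuous fun ζ : ℂ => a + ζ • (b - a)))
    (fun ζ => hM _) (fun ζ hζ => wt_logSub hh hF a (b - a) ζ hζ) 0 1
  simpa using h1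

/-- `w` does not vanish identically if the differential of `F` is bijective at some point. -/
theorem wt_pos (hh : IsCanonicalMetric h) (hF : MDifferentiable 𝓘(ℂ, E) 𝓘(ℂ, E) F)
    {e : OpenPartialHomeomorph X E} (he : e ∈ atlas E X) {z : E}
    (hz : F z ∈ e.source) (hd : (fderiv ℂ (e ∘ F) z).det ≠ 0) : ∃ y, 0 < wt h F y := by
  have ho := isOpen_pre hF e
  have hgood : ∀ᶠ y in 𝓝 z, F y ∈ e.source ∧ (fderiv ℂ (e ∘ F) y).det ≠ 0 := by
    filter_upwards [ho.mem_nhds hz, ((continuousOn_det hF he).continuousOn.continuousAt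
      (ho.mem_nhds hz)).eventually_ne hd] with y h1 h2 using ⟨h1, h2⟩
  have hC : ContDiffAt ℂ 1 (e ∘ F) z := (contDiffOn_chart hF he 1).contDiffAt (ho.mem_nhds hz)
  have hs := hC.hasStrictFDerivAt one_ne_zero
  let A : E ≃L[ℂ] E := (fderiv ℂ (e ∘ F) z).toContinuousLinearEquivOfDetNeZero hd
  have hA : (A : E →L[ℂ] E) = fderiv ℂ (e ∘ F) z := by
    ext1 v; rfl
  rw [← hA] at hs
  have hmap := hs.map_nhds_eq_of_equiv
  -- the image of a neighbourhood contains an open set
  obtain ⟨U, hUsub, hUo, hzU⟩ := _root_.mem_nhds_iff.1 hgood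
  have h1 : (e ∘ F) '' U ∈ 𝓝 ((e ∘ F) z) := by
    rw [← hmap]
    exact image_mem_map (hUo.mem_nhds hzU)
  obtain ⟨V, hVsub, hVo, hzV⟩ := _root_.mem_nhds_iff.1 h1
  have hVt : V ⊆ e.target := by
    intro y hy
    obtain ⟨u, hu, rfl⟩ := hVsub hy
    exact e.map_source (hUsub hu).1
  obtain ⟨y, hyV, hy0⟩ := hh.nontrivial e he V hVt hVo ⟨_, hzV⟩
  obtain ⟨u, hu, rfl⟩ := hVsub hyV
  refine ⟨u, ?_⟩
  rw [wt_eq hh hF he (hUsub hu).1]
  have h2 : 0 ≤ h e (e (F u)) := (hh.expPsh e he).nonneg _ (e.map_source (hUsub hu).1)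
  have h3 : h e (e (F u)) ≠ 0 := hy0
  have h4 := (hUsub hu).2
  have h5 : 0 < h e (e (F u)) := lt_of_le_of_ne h2 h3.symm
  have h6 : 0 < ‖(fderiv ℂ (e ∘ F) u).det‖ := norm_pos_iff.2 h4
  positivity

end Vale.Agent.P284.H113
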