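import Mathlib

/-!
# Nilpotent cocompact groups of affine maps with bounded linear parts consist of translations
-/

open Topology Set Filter
open scoped commutatorElement

namespace Vale.Agent.P284.H113

variable {V : Type*} [NormedAddCommGroup V] [NormedSpace ℂ V]

theorem eq_zero_of_bdd {d : V} {K : ℝ} (h : ∀ m : ℕ, ‖(m : ℂ) • d‖ ≤ K) : d = 0 := by
  by_contra hd
  have hd' : 0 < ‖d‖ := norm_pos_iff.2 hd
  obtain ⟨m, hm⟩ := exists_nat_gt (K / ‖d‖)
  have h1 := h m
  rw [norm_smul, Complex.norm_natCast] at h1
  rw [div_lt_iff₀ hd'] at hm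
  linarith

theorem fix_of_sq {A : V →L[ℂ] V} {C : ℝ} (hA : ∀ m : ℕ, ‖A ^ m‖ ≤ C) {u : V}
    (h : A (A u - u) = A u - u) : A u = u := by
  obtain ⟨d, hd⟩ : ∃ d, d = A u - u := ⟨_, rfl⟩
  rw [← hd] at h
  have hAu : A u = u + d := by rw [hd]; abel
  have h1 : ∀ m : ℕ, (A ^ m) u = u + (m : ℂ) • d := by
    intro m
    induction m with
    | zero => simp
    | succ m ih =>
      rw [pow_succ', mul_apply_eq_comp, ih, map_add, map_smul, h, hAu]
      push_cast
      rw [add_smul, one_smul]
      abel
  have h2 : d = 0 := by
    apply eq_zero_of_bdd (K := C * ‖u‖ + ‖u‖)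
    intro m
    have h3 : (m : ℂ) • d = (A ^ m) u - u := by rw [h1]; abel
    rw [h3]
    exact (norm_sub_le _ _).trans (add_le_add ((A ^ m).le_of_opNorm_le (hA m) u) le_rfl)
  rw [hAu, h2, add_zero]

/-- **Displacement argument.** -/
theorem lin_trivial {N : Type*} [Group N] [Group.IsNilpotent N] (L : N →* (V →L[ℂ] V))
    (b : N → V) (hb : ∀ g h, b (g * h) = L g (b h) + b g) {C : ℝ} (hC : ∀ g, ‖L g‖ ≤ C)
    {R : ℝ} (hR : ∀ v, ∃ g, ‖b g - v‖ ≤ R) (g : N) : L g = 1 := by
  have hb1 : b 1 = 0 := by
    have h := hb 1 1
    rw [mul_one, map_one] at h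
    simpa using h
  have hC0 : 0 ≤ C := (norm_nonneg _).trans (hC 1)
  have hpow : ∀ (g : N) (m : ℕ), ‖(L g) ^ m‖ ≤ C := fun g m => by
    rw [← map_pow]; exact hC _
  have key : ∀ i : ℕ, ∀ g ∈ Subgroup.upperCentralSeries N i, L g = 1 ∧
      ∀ h, L h (b g) = b g := by
    intro i
    induction i with
    | zero =>
      intro g hg
      rw [Subgroup.upperCentralSeries_zero, Subgroup.mem_bot] at hg
      subst hg
      exact ⟨map_one L, fun h => by rw [hb1, map_zero]⟩
    | succ i ih =>
      intro g hg
      rw [Subgroup.mem_upperCentralSeries_succ_iff] at hg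
      -- first part
      have hL : L g = 1 := by
        have h1 : ∀ h, (L g - 1) ((L g - 1) (b h)) = (L g - 1) (L h (b g) - b g) := by
          intro h
          have hc := ih _ (hg h)
          obtain ⟨c, hcdef⟩ : ∃ c, c = ⁅g, h⁆ := ⟨_, rfl⟩
          rw [← hcdef] at hc
          have e1 : g * h = c * (h * g) := by
            rw [hcdef, commutatorElement_def]; group
          have e2 : b (g * h) = L g (b h) + b g := hb g h
          have e3 : b (g * h) = L h (b g) + b h + b c := by
            rw [e1, hb, hb, hc.1]; rfl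
          have e4 : (L g - 1) (b h) = L h (b g) - b g + b c := by
            show L g (b h) - b h = _
            have : L g (b h) = L h (b g) + b h + b c - b g := by
              rw [← e3, e2]; abel
            rw [this]; abel
          have e5 : (L g - 1) (b c) = 0 := by
            show L g (b c) - b c = 0
            rw [hc.2 g, sub_self]
          rw [e4, map_add, e5, add_zero]
        -- boundedness of the square
        have hT : ∀ v, (L g - 1) ((L g - 1) v) = 0 := by
          intro v
          have hn : ‖L g - 1‖ ≤ C + C := (norm_sub_le _ _).trans (add_le_add (hC g) (by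
            rw [← map_one L]; exact hC 1))
          apply eq_zero_of_bdd (K := (C + C) * ((C * ‖b g‖ + ‖b g‖)) + (C + C) * ((C + C) * R))
          intro m
          obtain ⟨h, hh⟩ := hR ((m : ℂ) • v)
          have e1 : (m : ℂ) • (L g - 1) ((L g - 1) v) =
              (L g - 1) (L h (b g) - b g) - (L g - 1) ((L g - 1) (b h - (m : ℂ) • v)) := by
            rw [← h1 h, map_sub (L g - 1) (b h), map_sub, map_smul, map_smul]
            abel
          rw [e1]
          refine (norm_sub_le _ _).trans (add_le_add ?_ ?_)
          · refine ((L g - 1).le_of_opNorm_le hn _).trans ?_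
            apply mul_le_mul_of_nonneg_left _ (by positivity)
            exact (norm_sub_le _ _).trans (add_le_add ((L h).le_of_opNorm_le (hC h) _) le_rfl)
          · refine ((L g - 1).le_of_opNorm_le hn _).trans ?_
            apply mul_le_mul_of_nonneg_left _ (by positivity)
            refine ((L g - 1).le_of_opNorm_le hn _).trans ?_
            exact mul_le_mul_of_nonneg_left hh (by positivity)
        ext v
        have h2 : L g (L g v - v) = L g v - v := by
          have := hT v
          have h3 : L g (L g v - v) - (L g v - v) = 0 := this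
          exact sub_eq_zero.1 h3
        exact fix_of_sq (hpow g) h2
      refine ⟨hL, fun h => ?_⟩
      -- second part
      have hg' : h * g * h⁻¹ * g⁻¹ ∈ Subgroup.upperCentralSeries N i := by
        have h1 := Subgroup.inv_mem _ (hg h)
        have h2 : (⁅g, h⁆)⁻¹ = h * g * h⁻¹ * g⁻¹ := by
          rw [commutatorElement_def]; group
        rwa [h2] at h1
      obtain ⟨k, hk⟩ : ∃ k, k = h * g * h⁻¹ * g⁻¹ := ⟨_, rfl⟩
      rw [← hk] at hg'
      have hkk := ih k hg'
      have e1 : h * g = k * (g * h) := by rw [hk]; group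
      have e2 : b (h * g) = L h (b g) + b h := hb h g
      have e3 : b (h * g) = b h + b g + b k := by
        rw [e1, hb, hb, hkk.1, hL]; rfl
      have e4 : b k = L h (b g) - b g := by
        have : b k = b (h * g) - b h - b g := by rw [e3]; abel
        rw [this, e2]; abel
      apply fix_of_sq (hpow h)
      rw [← e4]
      exact hkk.2 h
  obtain ⟨i, hi⟩ : ∃ i, Subgroup.upperCentralSeries N i = ⊤ := Group.IsNilpotent.nilpotent N
  exact (key i g (by rw [hi]; trivial)).1

end Vale.Agent.P284.H113
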