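import Vale.Agent.P284.H113.Local

/-!
# Uniform estimates
-/

open Metric Set Filter Topology Uniformity
open scoped Manifold ContDiff

set_option linter.unusedSectionVars false

namespace Vale.Agent.P284.H113

section Calc

variable {E : Type*} [NormedAddCommGroup E] [NormedSpace ℂ E] [FiniteDimensional ℂ E]

theorem continuous_det : Continuous (fun A : E →L[ℂ] E => A.det) :=
  ContinuousLinearMap.continuous_det

theorem det_bdd (C : ℝ) : ∃ B : ℝ, ∀ A : E →L[ℂ] E, ‖A‖ ≤ C → ‖A.det‖ ^ 2 ≤ B := by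
  have : ProperSpace (E →L[ℂ] E) := FiniteDimensional.proper ℂ _
  obtain ⟨B, hB⟩ := ((isCompact_closedBall (0 : E →L[ℂ] E) C).image
    ((continuous_det (E := E)).norm.pow 2)).bddAbove
  refine ⟨B, fun A hA => hB ⟨A, by simpa using hA, rfl⟩⟩

theorem inverse_bound (C δ : ℝ) (hδ : 0 < δ) : ∃ C' > 0, ∀ A : E →L[ℂ] E, ‖A‖ ≤ C →
    δ ≤ ‖A.det‖ → ∀ v, ‖v‖ ≤ C' * ‖A v‖ := by
  have : ProperSpace (E →L[ℂ] E) := FiniteDimensional.proper ℂ _
  set S : Set (E →L[ℂ] E) := {A | ‖A‖ ≤ C ∧ δ ≤ ‖A.det‖} with hS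
  have hSc : IsCompact S := by
    have h1 : S = closedBall 0 C ∩ {A | δ ≤ ‖A.det‖} := by
      ext A
      simp [hS]
    rw [h1]
    exact (isCompact_closedBall _ _).inter_right
      (isClosed_le continuous_const (continuous_det (E := E)).norm)
  set T : Set ((E →L[ℂ] E) × E) := S ×ˢ sphere 0 1 with hT
  have hTc : IsCompact T := hSc.prod (isCompact_sphere _ _)
  have hcont : Continuous fun p : (E →L[ℂ] E) × E => ‖p.1 p.2‖ := by fun_prop
  have hpos : ∀ p ∈ T, 0 < ‖p.1 p.2‖ := by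
    rintro ⟨A, v⟩ ⟨hA, hv⟩
    rw [norm_pos_iff]
    intro h0
    have hdet : A.det ≠ 0 := by
      intro h
      have := hA.2
      rw [h, norm_zero] at this
      linarith
    have hinj : v = 0 := by
      have h1 : (A.toContinuousLinearEquivOfDetNeZero hdet) v = 0 := h0
      exact (A.toContinuousLinearEquivOfDetNeZero hdet).map_eq_zero_iff.1 h1
    rw [hinj] at hv
    simp at hv
  rcases T.eq_empty_or_nonempty with hTe | hTne
  · refine ⟨1, one_pos, fun A h1 h2 v => ?_⟩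
    rcases eq_or_ne v 0 with rfl | hv
    · simp
    · exfalso
      have hv' : 0 < ‖v‖ := norm_pos_iff.2 hv
      have : ((A, ((‖v‖⁻¹ : ℝ) : ℂ) • v) : (E →L[ℂ] E) × E) ∈ T := by
        refine ⟨⟨h1, h2⟩, ?_⟩
        rw [mem_sphere_zero_iff_norm, norm_smul, Complex.norm_real, norm_inv, norm_norm,
          inv_mul_cancel₀ hv'.ne']
      rw [hTe] at this
      exact this
  · obtain ⟨m, hmpos, hmin⟩ : ∃ m > 0, ∀ p ∈ T, m ≤ ‖p.1 p.2‖ := by
      obtain ⟨p₀, hp₀, hmin⟩ := hTc.exists_isMinOn hTne hcont.continuousOn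
      exact ⟨_, hpos _ hp₀, isMinOn_iff.1 hmin⟩
    refine ⟨m⁻¹, by positivity, fun A h1 h2 v => ?_⟩
    rcases eq_or_ne v 0 with rfl | hv
    · simp
    · have hv' : 0 < ‖v‖ := norm_pos_iff.2 hv
      obtain ⟨u, hu⟩ : ∃ u : E, u = ((‖v‖⁻¹ : ℝ) : ℂ) • v := ⟨_, rfl⟩
      have h3 : (A, u) ∈ T := by
        refine ⟨⟨h1, h2⟩, ?_⟩
        rw [hu, mem_sphere_zero_iff_norm, norm_smul, Complex.norm_real, norm_inv, norm_norm,
          inv_mul_cancel₀ hv'.ne']
      have h4 := hmin (A, u) h3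
      dsimp only at h4
      rw [hu] at h4
      have h5 : ‖A (((‖v‖⁻¹ : ℝ) : ℂ) • v)‖ = ‖A v‖ / ‖v‖ := by
        rw [ContinuousLinearMap.map_smul, norm_smul, Complex.norm_real, norm_inv, norm_norm,
          inv_mul_eq_div]
      rw [h5, le_div_iff₀ hv'] at h4
      rw [inv_mul_eq_div, le_div_iff₀ hmpos]
      linarith

/-- Quantitative inverse function theorem. -/
theorem quant_inv {g : E → E} {z : E} {s C' : ℝ} (hC' : 0 < C')
    (hs : 0 < s) (hg : ∀ y ∈ ball z s, DifferentiableAt ℂ g y)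
    (hd : ∀ y ∈ ball z s, ‖fderiv ℂ g y - fderiv ℂ g z‖ ≤ 1 / (2 * C'))
    (hdet : (fderiv ℂ g z).det ≠ 0)
    (hA : ∀ v, ‖v‖ ≤ C' * ‖fderiv ℂ g z v‖) :
    InjOn g (ball z s) ∧ ∀ p, dist p (g z) < s / (4 * C') → ∃ y ∈ ball z s, g y = p := by
  set A := fderiv ℂ g z with hAdef
  have happ : ∀ x ∈ ball z s, ∀ y ∈ ball z s, ‖g y - g x - A (y - x)‖ ≤
      1 / (2 * C') * ‖y - x‖ := by
    intro x hx y hy
    exact (convex_ball z s).norm_image_sub_le_of_norm_hasFDerivWithin_le'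
      (f := g) (f' := fun y => fderiv ℂ g y) (φ := A) (C := 1 / (2 * C'))
      (fun y hy => (hg y hy).hasFDerivAt.hasFDerivWithinAt) hd hx hy
  constructor
  · intro x hx y hy hxy
    have h1 := happ x hx y hy
    rw [hxy, sub_self, zero_sub, norm_neg] at h1
    have h2 := hA (y - x)
    have h3 : C' * ‖A (y - x)‖ ≤ C' * (1 / (2 * C') * ‖y - x‖) :=
      mul_le_mul_of_nonneg_left h1 hC'.le
    have h4 : C' * (1 / (2 * C') * ‖y - x‖) = ‖y - x‖ / 2 := by field_simp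
    have h5 : ‖y - x‖ ≤ 0 := by linarith
    have h6 : y - x = 0 := norm_le_zero_iff.1 h5
    exact (sub_eq_zero.1 h6).symm
  · intro p hp
    let Ae : E ≃L[ℂ] E := A.toContinuousLinearEquivOfDetNeZero hdet
    obtain ⟨k, hk⟩ : ∃ k : NNReal, (k : ℝ) = 1 / (2 * C') := ⟨⟨_, by positivity⟩, rfl⟩
    obtain ⟨k', hk'⟩ : ∃ k' : NNReal, (k' : ℝ) = C' := ⟨⟨_, hC'.le⟩, rfl⟩
    let inv : A.NonlinearRightInverse :=
      { toFun := Ae.symm
        nnnorm := k'
        bound' := fun y => by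
          have h1 := hA (Ae.symm y)
          have h2 : A (Ae.symm y) = y := Ae.apply_symm_apply y
          rw [h2] at h1
          rw [hk']
          exact h1
        right_inv' := fun y => Ae.apply_symm_apply y }
    have hal : ApproximatesLinearOn g A (ball z s) k := by
      intro x hx y hy
      rw [hk]
      exact happ y hy x hx
    have hsub : closedBall z (s / 2) ⊆ ball z s := closedBall_subset_ball (by linarith)
    have h1 := hal.surjOn_closedBall_of_nonlinearRightInverse inv (ε := s / 2) (by positivity) hsub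
    have h2 : (((inv.nnnorm : ℝ)⁻¹ - (k : ℝ)) * (s / 2)) = s / (4 * C') := by
      show ((k' : ℝ)⁻¹ - (k : ℝ)) * (s / 2) = _
      rw [hk, hk']
      field_simp
      ring
    rw [h2] at h1
    obtain ⟨y, hy, hyp⟩ := h1 (mem_closedBall.2 hp.le)
    exact ⟨y, hsub hy, hyp⟩

end Calc

variable {E : Type*} [NormedAddCommGroup E] [NormedSpace ℂ E] [FiniteDimensional ℂ E] {X : Type*} [UniformSpace X] [CompactSpace X] [T2Space X]
  [ChartedSpace E X] [IsManifold 𝓘(ℂ, E) ω X]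

/-- Uniform neighbourhoods. -/
theorem exists_nhds_unif {E' : Type*} [NormedAddCommGroup E'] [NormedSpace ℂ E'] [FiniteDimensional ℂ E'] {F : E' → X} (hu : UniformContinuous F) (x : X) :
    ∃ K ∈ 𝓝 x, ∃ K' : Set X, IsCompact K ∧ IsCompact K' ∧ K ⊆ K' ∧
      K' ⊆ (chartAt E x).source ∧
      ∃ s₀ > 0, ∀ z, F z ∈ K → ∀ y ∈ ball z s₀, F y ∈ K' := by
  obtain ⟨K', hK'n, hK's, hK'c⟩ := local_compact_nhds (chart_source_mem_nhds E x)
  obtain ⟨K, hKn, hKs, hKc⟩ := local_compact_nhds (interior_mem_nhds.2 hK'n)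
  obtain ⟨V, hV, -, hVK⟩ := lebesgue_number_of_compact_open hKc isOpen_interior hKs
  have hpre : (fun x : E' × E' => (F x.1, F x.2)) ⁻¹' V ∈ 𝓤 E' := hu hV
  obtain ⟨s₀, hs₀, h⟩ := Metric.mem_uniformity_dist.1 hpre
  refine ⟨K, hKn, K', hKc, hK'c, hKs.trans interior_subset, hK's, s₀, hs₀, fun z hz y hy => ?_⟩
  have h1 : (F z, F y) ∈ V := h (by rw [dist_comm]; exact hy)
  exact interior_subset (hVK _ hz h1)

/-- Cauchy estimates. -/
theorem exists_cauchy {E' : Type*} [NormedAddCommGroup E'] [NormedSpace ℂ E'] [FiniteDimensional ℂ E'] {F : E' → X} (hF : MDifferentiable 𝓘(ℂ, E') 𝓘(ℂ, E) F)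
    {e : OpenPartialHomeomorph X E} (he : e ∈ atlas E X) {K K' : Set X}
    (hK' : IsCompact K') (hKe : K' ⊆ e.source) {s₀ : ℝ} (hs₀ : 0 < s₀)
    (h : ∀ z, F z ∈ K → ∀ y ∈ ball z s₀, F y ∈ K') :
    ∃ C ≥ 0, ∃ L ≥ 0, ∀ z, F z ∈ K → (∀ y ∈ ball z s₀, DifferentiableAt ℂ (e ∘ F) y) ∧
      ‖fderiv ℂ (e ∘ F) z‖ ≤ C ∧ 
      ∀ y ∈ ball z (s₀ / 4), ‖fderiv ℂ (e ∘ F) y - fderiv ℂ (e ∘ F) z‖ ≤ L * ‖y - z‖ := by
  have hb : IsCompact (e '' K') := hK'.image_of_continuousOn (e.continuousOn.mono hKe)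
  obtain ⟨B₀, hB₀⟩ := hb.isBounded.exists_norm_le
  set B := max B₀ 0 with hB
  have hBn : ∀ p ∈ K', ‖e p‖ ≤ B := fun p hp => (hB₀ _ ⟨p, hp, rfl⟩).trans (le_max_left _ _)
  have hB0 : 0 ≤ B := le_max_right _ _
  set C := B / (s₀ / 2) with hC
  have hC0 : 0 ≤ C := by positivity
  set L := C / (s₀ / 4) with hL
  have hL0 : 0 ≤ L := by positivity
  refine ⟨C, hC0, L, hL0, fun z hz => ?_⟩
  have hd := differentiableOn_chart hF he
  have ho := isOpen_pre (E := E) hF e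
  have hsub : ball z s₀ ⊆ F ⁻¹' e.source := fun y hy => hKe (h z hz y hy)
  have h1 : ∀ y ∈ ball z (s₀ / 2), ‖fderiv ℂ (e ∘ F) y‖ ≤ C := by
    intro y hy
    have hsub2 : ball y (s₀ / 2) ⊆ ball z s₀ := by
      apply ball_subset_ball'
      have := mem_ball.1 hy
      linarith
    apply P268.norm_fderiv_le_of_ball (by positivity) (hd.mono (hsub2.trans hsub))
    intro p hp
    exact hBn _ (h z hz _ (hsub2 hp))
  have hzz : z ∈ ball z (s₀ / 2) := mem_ball_self (by positivity)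
  refine ⟨fun y hy => hd.differentiableAt (ho.mem_nhds (hsub hy)), h1 z hzz, ?_⟩
  have hfd : DifferentiableOn ℂ (fun y => fderiv ℂ (e ∘ F) y) (F ⁻¹' e.source) :=
    ((contDiffOn_chart hF he 2).fderiv_of_isOpen (m := 1) ho (by norm_num)).differentiableOn
      one_ne_zero
  have h2 : ∀ y ∈ ball z (s₀ / 4), ‖fderiv ℂ (fun y => fderiv ℂ (e ∘ F) y) y‖ ≤ L := by
    intro y hy
    have hsub2 : ball y (s₀ / 4) ⊆ ball z (s₀ / 2) := by
      apply ball_subset_ball'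
      have := mem_ball.1 hy
      linarith
    apply P268.norm_fderiv_le_of_ball (by positivity)
      (hfd.mono (hsub2.trans ((ball_subset_ball (by linarith)).trans hsub)))
    intro p hp
    exact h1 _ (hsub2 hp)
  intro y hy
  exact (convex_ball z (s₀ / 4)).norm_image_sub_le_of_norm_fderiv_le
    (fun p hp => hfd.differentiableAt (ho.mem_nhds (hsub (ball_subset_ball (by linarith) hp))))
    h2 (mem_ball_self (by positivity)) hy

variable {h : OpenPartialHomeomorph X E → E → ℝ} {F : E → X}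

/-- bound for the weights on compact sets -/
theorem weight_bdd (hh : IsCanonicalMetric h) {e : OpenPartialHomeomorph X E}
    (he : e ∈ atlas E X) {K : Set X} (hK : IsCompact K) (hKe : K ⊆ e.source) :
    ∃ M > 0, ∀ p ∈ K, h e (e p) ≤ M := by
  have hb : IsCompact (e '' K) := hK.image_of_continuousOn (e.continuousOn.mono hKe)
  have h1 : UpperSemicontinuousOn (h e) (e '' K) := (hh.expPsh e he).usc.mono (by
    rintro _ ⟨p, hp, rfl⟩
    exact e.map_source (hKe hp))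
  obtain ⟨M, hM⟩ := h1.bddAbove_of_isCompact hb
  exact ⟨max M 1, by positivity, fun p hp =>
    (hM ⟨e p, ⟨p, hp, rfl⟩, rfl⟩).trans (le_max_left _ _)⟩

theorem wt_bdd (hh : IsCanonicalMetric h) (hF : MDifferentiable 𝓘(ℂ, E) 𝓘(ℂ, E) F)
    (hu : UniformContinuous F) : ∃ M, ∀ z, wt h F z ≤ M := by
  have key : ∀ x : X, ∃ K ∈ 𝓝 x, ∃ M : ℝ, 0 ≤ M ∧ ∀ z, F z ∈ K → wt h F z ≤ M := by
    intro x
    obtain ⟨K, hKn, K', hKc, hK'c, hKK', hK's, s₀, hs₀, hs⟩ := exists_nhds_unif (E := E) hu x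
    have hea := chart_mem_atlas E x
    obtain ⟨C, hC0, L, hL0, hC⟩ := exists_cauchy hF hea hK'c hK's hs₀ hs
    obtain ⟨M, hM, hMb⟩ := weight_bdd hh hea hKc (hKK'.trans hK's)
    obtain ⟨B, hB⟩ := det_bdd (E := E) C
    have hB0 : 0 ≤ B := le_trans (by positivity) (hB 0 (by simpa using hC0))
    refine ⟨K, hKn, M * B, by positivity, fun z hz => ?_⟩
    rw [wt_eq hh hF hea (hK's (hKK' hz))]
    exact mul_le_mul (hMb _ hz) (hB _ (hC z hz).2.1) (by positivity) hM.le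
  choose K hK M hM0 hM using key
  obtain ⟨t, ht⟩ := isCompact_univ.elim_nhds_subcover K (fun x _ => hK x)
  refine ⟨∑ x ∈ t, M x, fun z => ?_⟩
  obtain ⟨x, hx, hzx⟩ := mem_iUnion₂.1 (ht.2 (mem_univ (F z)))
  exact (hM x z hzx).trans (Finset.single_le_sum (f := M) (fun i _ => hM0 i) hx)

theorem local_unif (hh : IsCanonicalMetric h) (hF : MDifferentiable 𝓘(ℂ, E) 𝓘(ℂ, E) F)
    (hu : UniformContinuous F) {c : ℝ} (hc : 0 < c) (hw : ∀ z, wt h F z = c) (x : X) :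
    ∃ K ∈ 𝓝 x, K ⊆ (chartAt E x).source ∧ ∃ s₀ > 0, ∃ C ≥ 0,
      (∀ z, F z ∈ K → InjOn F (ball z s₀) ∧ ‖fderiv ℂ (chartAt E x ∘ F) z‖ ≤ C ∧
        (∀ v, ‖v‖ ≤ C * ‖fderiv ℂ (chartAt E x ∘ F) z v‖) ∧
        (fderiv ℂ (chartAt E x ∘ F) z).det ≠ 0) ∧
      ∀ s, 0 < s → s ≤ s₀ → ∃ V ∈ 𝓤 X, ∀ z, F z ∈ K → ∀ y, (F z, y) ∈ V →
        ∃ z' ∈ ball z s, F z' = y := by
  obtain ⟨K, hKn, K', hKc, hK'c, hKK', hK's, s₁, hs₁, hs⟩ := exists_nhds_unif (E := E) hu x
  set e := chartAt E x with he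
  have hea := chart_mem_atlas E x
  rw [← he] at hea
  have hKe : K ⊆ e.source := hKK'.trans hK's
  obtain ⟨C, hC0, L, hL0, hC⟩ := exists_cauchy hF hea hK'c hK's hs₁ hs
  obtain ⟨M, hM, hMb⟩ := weight_bdd hh hea hKc hKe
  have hdet : ∀ z, F z ∈ K → Real.sqrt (c / M) ≤ ‖(fderiv ℂ (e ∘ F) z).det‖ := by
    intro z hz
    have h1 := hw z
    rw [wt_eq hh hF hea (hKe hz)] at h1
    have h2 : c ≤ M * ‖(fderiv ℂ (e ∘ F) z).det‖ ^ 2 := by
      rw [← h1]
      exact mul_le_mul_of_nonneg_right (hMb _ hz) (by positivity)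
    rw [Real.sqrt_le_left (norm_nonneg _), div_le_iff₀ hM]
    linarith
  have hδ : 0 < Real.sqrt (c / M) := Real.sqrt_pos.2 (by positivity)
  obtain ⟨C', hC'0, hC'⟩ := inverse_bound (E := E) C _ hδ
  set s₀ := min (s₁ / 4) (1 / (2 * C' * (L + 1))) with hs₀
  have hs₀pos : 0 < s₀ := lt_min (by positivity) (by positivity)
  have hqi : ∀ s, 0 < s → s ≤ s₀ → ∀ z, F z ∈ K → InjOn (e ∘ F) (ball z s) ∧
      ∀ p, dist p ((e ∘ F) z) < s / (4 * C') → ∃ y ∈ ball z s, (e ∘ F) y = p := by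
    intro s hs0 hss z hz
    have hsub : ball z s ⊆ ball z (s₁ / 4) :=
      ball_subset_ball (hss.trans (min_le_left _ _))
    apply quant_inv hC'0 hs0
    · intro y hy
      exact (hC z hz).1 y (ball_subset_ball (by linarith) (hsub hy))
    · intro y hy
      refine ((hC z hz).2.2 y (hsub hy)).trans ?_
      have h1 : ‖y - z‖ ≤ 1 / (2 * C' * (L + 1)) := by
        rw [← dist_eq_norm]
        exact (mem_ball.1 hy).le.trans (hss.trans (min_le_right _ _))
      calc L * ‖y - z‖ ≤ (L + 1) * (1 / (2 * C' * (L + 1))) :=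
            mul_le_mul (by linarith) h1 (norm_nonneg _) (by linarith)
        _ = 1 / (2 * C') := by field_simp
    · intro h0
      have := hdet z hz
      rw [h0, norm_zero] at this
      linarith
    · exact hC' _ (hC z hz).2.1 (hdet z hz)
  refine ⟨K, hKn, hKe, s₀, hs₀pos, C + C', by positivity, fun z hz => ?_, ?_⟩
  · refine ⟨?_, ?_, ?_, ?_⟩
    · intro y hy y' hy' hyy'
      exact (hqi s₀ hs₀pos le_rfl z hz).1 hy hy' (congrArg e hyy')
    · have := (hC z hz).2.1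
      linarith
    · intro v
      refine (hC' _ (hC z hz).2.1 (hdet z hz) v).trans ?_
      apply mul_le_mul_of_nonneg_right _ (norm_nonneg _)
      linarith
    · intro h0
      have := hdet z hz
      rw [h0, norm_zero] at this
      linarith
  · intro s hs0 hss
    -- an entourage
    set τ := s / (4 * C') with hτ
    have hτ0 : 0 < τ := by positivity
    have hnb : ∀ p ∈ K, {y | y ∈ e.source ∧ dist (e y) (e p) < τ / 2} ∈ 𝓝 p := by
      intro p hp
      have h1 : ContinuousAt e p := e.continuousAt (hKe hp)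
      filter_upwards [e.open_source.mem_nhds (hKe hp), h1.eventually
        (ball_mem_nhds (e p) (by positivity : 0 < τ / 2))] with y h2 h3 using ⟨h2, h3⟩
    obtain ⟨V, hV, hVK⟩ := lebesgue_number_lemma_nhds' hKc
      (U := fun p _ => {y | y ∈ e.source ∧ dist (e y) (e p) < τ / 2}) hnb
    refine ⟨V, hV, fun z hz y hy => ?_⟩
    obtain ⟨⟨p, hpK⟩, hp⟩ := hVK (F z) hz
    have h1 := hp (show y ∈ UniformSpace.ball (F z) V from hy)
    have h2 := hp (UniformSpace.mem_ball_self (F z) hV)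
    obtain ⟨z', hz', hz'e⟩ := (hqi s hs0 hss z hz).2 (e y) (by
      calc dist (e y) (e (F z)) ≤ dist (e y) (e p) + dist (e (F z)) (e p) := dist_triangle_right _ _ _
        _ < τ := by have := h1.2; have := h2.2; linarith)
    refine ⟨z', hz', ?_⟩
    have hz's : F z' ∈ e.source := by
      apply hK's
      apply hs z hz
      apply ball_subset_ball _ hz'
      have := hss.trans (min_le_left _ _)
      linarith
    exact e.injOn hz's h1.1 hz'e

/-- **Uniform local invertibility.** -/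
theorem global_unif (hh : IsCanonicalMetric h) (hF : MDifferentiable 𝓘(ℂ, E) 𝓘(ℂ, E) F)
    (hu : UniformContinuous F) {c : ℝ} (hc : 0 < c) (hw : ∀ z, wt h F z = c) :
    ∃ s₀ > 0, (∀ z, InjOn F (ball z s₀)) ∧
      (∀ s > 0, ∃ V ∈ 𝓤 X, ∀ z y, (F z, y) ∈ V → ∃ z' ∈ ball z s, F z' = y) ∧
      ∃ C ≥ 0, ∀ p, ∃ e ∈ atlas E X, p ∈ e.source ∧ ∀ z, F z = p →
        ‖fderiv ℂ (e ∘ F) z‖ ≤ C ∧ (∀ v, ‖v‖ ≤ C * ‖fderiv ℂ (e ∘ F) z v‖) ∧
        (fderiv ℂ (e ∘ F) z).det ≠ 0 := by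
  choose K hK hKs s₀ hs₀ C hC h1 h2 using local_unif hh hF hu hc hw
  obtain ⟨t, ht⟩ := isCompact_univ.elim_nhds_subcover K (fun x _ => hK x)
  have hcov : ∀ p, ∃ x ∈ t, p ∈ K x := by
    intro p
    obtain ⟨x, hx, hpx⟩ := mem_iUnion₂.1 (ht.2 (mem_univ p))
    exact ⟨x, hx, hpx⟩
  obtain ⟨S, hS0, hS⟩ : ∃ S > 0, ∀ x ∈ t, S ≤ s₀ x := by
    rcases t.eq_empty_or_nonempty with rfl | hne
    · exact ⟨1, one_pos, fun x hx => by simp at hx⟩
    · obtain ⟨x₀, hx₀, hmin⟩ := t.exists_min_image s₀ hne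
      exact ⟨s₀ x₀, hs₀ x₀, hmin⟩
  refine ⟨S, hS0, ?_, ?_, ∑ x ∈ t, C x, Finset.sum_nonneg fun x _ => hC x, ?_⟩
  · intro z
    obtain ⟨x, hx, hzx⟩ := hcov (F z)
    exact (h1 x z hzx).1.mono (ball_subset_ball (hS x hx))
  · intro s hs
    have h3 : ∀ x ∈ t, ∃ V ∈ 𝓤 X, ∀ z, F z ∈ K x → ∀ y, (F z, y) ∈ V →
        ∃ z' ∈ ball z s, F z' = y := by
      intro x hx
      obtain ⟨V, hV, hV'⟩ := h2 x (min s S) (lt_min hs hS0) ((min_le_right _ _).trans (hS x hx))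
      refine ⟨V, hV, fun z hz y hy => ?_⟩
      obtain ⟨z', hz', h4⟩ := hV' z hz y hy
      exact ⟨z', ball_subset_ball (min_le_left _ _) hz', h4⟩
    choose! V hV hV' using h3
    refine ⟨⋂ x ∈ t, V x, (Filter.biInter_finset_mem t).2 hV, fun z y hzy => ?_⟩
    obtain ⟨x, hx, hzx⟩ := hcov (F z)
    exact hV' x hx z hzx y (mem_iInter₂.1 hzy x hx)
  · intro p
    obtain ⟨x, hx, hpx⟩ := hcov p
    refine ⟨chartAt E x, chart_mem_atlas _ _, hKs x hpx, fun z hz => ?_⟩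
    have hle : C x ≤ ∑ x ∈ t, C x := Finset.single_le_sum (f := C) (fun i _ => hC i) hx
    obtain ⟨-, h3, h4, h5⟩ := h1 x z (hz ▸ hpx)
    exact ⟨h3.trans hle, fun v => (h4 v).trans (mul_le_mul_of_nonneg_right hle (norm_nonneg _)),
      h5⟩

end Vale.Agent.P284.H113
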